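import Vale.Agent.P105.Base

/-! Non-Pisot property and classification of the quartic Salem numbers below `2`. -/

namespace Vale.Agent.P105

open Polynomial

lemma eval_form (a1 a0 : ℤ) {τ τ' β : ℝ} {α : ℂ} (hτ : τ ^ 2 = a1 * τ + a0)
    (hτ' : τ' ^ 2 = a1 * τ' + a0) (hβ : β ^ 2 = τ * β - 1) (hq : α ^ 2 = τ' * α - 1) (f : ℚ[X]) :
    ∃ x0 x1 y0 y1 : ℚ, aeval β f = (x0 + x1 * τ) + (y0 + y1 * τ) * β ∧
      aeval α f = ((x0 + x1 * τ' : ℝ) : ℂ) + ((y0 + y1 * τ' : ℝ) : ℂ) * α := by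
  have hτc : (τ' : ℂ) ^ 2 = a1 * τ' + a0 := by exact_mod_cast hτ'
  induction f using Polynomial.induction_on with
  | C c => exact ⟨c, 0, 0, 0, by simp, by simp⟩
  | add p q hp hq =>
    obtain ⟨x0, x1, y0, y1, e1, e2⟩ := hp
    obtain ⟨u0, u1, v0, v1, e3, e4⟩ := hq
    refine ⟨x0 + u0, x1 + u1, y0 + v0, y1 + v1, ?_, ?_⟩
    · rw [map_add, e1, e3]; push_cast; ring
    · rw [map_add, e2, e4]; push_cast; ring
  | monomial n c ih =>
    obtain ⟨x0, x1, y0, y1, e1, e2⟩ := ih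
    refine ⟨-y0, -y1, x0 + y1 * a0, x1 + y0 + y1 * a1, ?_, ?_⟩
    · rw [pow_succ, ← mul_assoc, map_mul, e1, aeval_X]; push_cast
      linear_combination (y0 + y1 * τ) * hβ + y1 * β * hτ
    · rw [pow_succ, ← mul_assoc, map_mul, e2, aeval_X]; push_cast
      linear_combination (y0 + y1 * (τ' : ℂ)) * hq + y1 * α * hτc

lemma conj_root (a1 a0 : ℤ) {τ τ' β : ℝ} {α : ℂ} (hτ : τ ^ 2 = a1 * τ + a0)
    (hτ' : τ' ^ 2 = a1 * τ' + a0) (hβ : β ^ 2 = τ * β - 1) (hq : α ^ 2 = τ' * α - 1)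
    (hirr : Irrational τ) (h4 : τ' ^ 2 < 4) (f : ℚ[X]) (hf : aeval β f = 0) : aeval α f = 0 := by
  obtain ⟨x0, x1, y0, y1, e1, e2⟩ := eval_form a1 a0 hτ hτ' hβ hq f
  rw [hf] at e1
  set a : ℚ := x0 ^ 2 + y0 ^ 2 + a0 * (x1 ^ 2 + y1 ^ 2 + x0 * y1 + x1 * y0) + x1 * y1 * a1 * a0
    with ha
  set b : ℚ := 2 * x0 * x1 + 2 * y0 * y1 + a1 * (x1 ^ 2 + y1 ^ 2 + x0 * y1 + x1 * y0) + x0 * y0 +
    x1 * y1 * (a1 ^ 2 + a0) with hb
  have key : ∀ t : ℝ, t ^ 2 = a1 * t + a0 → (x0 + x1 * t) ^ 2 + t * (x0 + x1 * t) * (y0 + y1 * t) +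
      (y0 + y1 * t) ^ 2 = a + b * t := by
    intro t ht
    rw [ha, hb]; push_cast
    linear_combination ((x1 ^ 2 + y1 ^ 2 + x0 * y1 + x1 * y0) + x1 * y1 * (t + a1)) * ht
  have h0 : (a : ℝ) + b * τ = 0 := by
    rw [← key τ hτ]
    have : (x0 : ℝ) + x1 * τ = -((y0 + y1 * τ) * β) := by linarith
    rw [this]
    linear_combination (y0 + y1 * τ) ^ 2 * hβ
  have hb0 : b = 0 := by
    by_contra hne
    apply hirr
    refine ⟨-a / b, ?_⟩
    have : (b : ℝ) ≠ 0 := by exact_mod_cast hne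
    push_cast
    field_simp
    linarith
  have ha0 : (a : ℝ) = 0 := by simpa [hb0] using h0
  have h1 := key τ' hτ'
  rw [ha0, hb0] at h1
  simp only [Rat.cast_zero, zero_mul, add_zero] at h1
  generalize (x0 : ℝ) + x1 * τ' = u at *
  generalize (y0 : ℝ) + y1 * τ' = v at *
  have hv : v = 0 := by
    by_contra hne
    have : 0 < v ^ 2 := by positivity
    nlinarith [sq_nonneg (2 * u + τ' * v), mul_pos this (sub_pos.2 h4)]
  have hu : u = 0 := by
    rw [hv] at h1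
    simpa using h1
  rw [e2, hu, hv]; simp

theorem not_pisot_one {β : ℝ} (h1 : 1 < β)
    (hτ : (β + β⁻¹) ^ 2 = (1 : ℤ) * (β + β⁻¹) + (3 : ℤ)) : ¬ IsPisot β := by
  have hβ0 : 0 < β := by linarith
  have hlam : β * β⁻¹ = 1 := mul_inv_cancel₀ hβ0.ne'
  generalize β⁻¹ = lam at *
  obtain ⟨τ, hb⟩ : ∃ τ, β + lam = τ := ⟨_, rfl⟩
  rw [hb] at hτ
  have hτ2 : 2 ≤ τ := by nlinarith [sq_nonneg (β - 1)]
  have hτr := hτ
  push_cast at hτr
  have t1 : 2.3 ≤ τ := by
    by_contra hc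
    nlinarith
  have t2 : τ ≤ 2.4 := by
    by_contra hc
    nlinarith
  obtain ⟨α, hα, hre⟩ := exists_alpha (t := 1 - τ) (by nlinarith)
  have hq : α ^ 2 = ((1 - τ : ℝ) : ℂ) * α - 1 := by
    have h1 : α * (starRingEnd ℂ) α = 1 := by
      rw [Complex.mul_conj, Complex.normSq_eq_norm_sq, hα]; simp
    have h2 : α + (starRingEnd ℂ) α = ((1 - τ : ℝ) : ℂ) := by
      rw [Complex.add_conj, ← hre]
    linear_combination α * h2 - h1
  have hirr : Irrational τ := by
    have h13 : Irrational (2 * τ - 1) := by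
      refine irrational_nrt_of_notint_nrt 2 13 (by push_cast; linarith) ?_ (by norm_num)
      rintro ⟨y, hy⟩
      have c1 : (3 : ℝ) < y := by linarith
      have c2 : (y : ℝ) < 4 := by linarith
      have c3 : (3 : ℤ) < y := by exact_mod_cast c1
      have c4 : y < (4 : ℤ) := by exact_mod_cast c2
      omega
    rintro ⟨r, hr⟩
    exact h13 ⟨2 * r - 1, by push_cast; rw [hr]⟩
  rintro ⟨-, -, h⟩
  have hroot := conj_root 1 3 hτ (τ' := 1 - τ) (by push_cast; linarith) (β := β)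
    (by rw [← hb]; linarith) hq hirr (by nlinarith) _ (minpoly.aeval ℚ β)
  have := h α hroot (by
    intro he
    rw [he, Complex.norm_real, Real.norm_eq_abs, abs_of_pos hβ0] at hα
    linarith)
  linarith

lemma aeval_quartic {R : Type} [CommRing R] [Algebra ℚ R] (f : ℚ[X]) (hf : f.natDegree = 4)
    (hm : f.Monic) (x : R) :
    aeval x f = x ^ 4 + algebraMap ℚ R (f.coeff 3) * x ^ 3 + algebraMap ℚ R (f.coeff 2) * x ^ 2 +
      algebraMap ℚ R (f.coeff 1) * x + algebraMap ℚ R (f.coeff 0) := by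
  have h4 : f.coeff 4 = 1 := by rw [← hf]; exact hm.coeff_natDegree
  rw [aeval_eq_sum_range, hf]
  simp only [Finset.sum_range_succ, Finset.sum_range_zero, h4, Algebra.smul_def, map_one]
  ring

theorem salem_classify {β : ℝ} (h : IsSalem β) (hdeg : (minpoly ℚ β).natDegree = 4) (h2 : β < 2) :
    (β + β⁻¹) ^ 2 = (1 : ℤ) * (β + β⁻¹) + (3 : ℤ) ∨
      (β + β⁻¹) ^ 2 = (2 : ℤ) * (β + β⁻¹) + (1 : ℤ) := by
  obtain ⟨h1, hint, -, z, hz, hz1⟩ := h
  have hβ0 : 0 < β := by linarith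
  have hintQ : IsIntegral ℚ β := hint.tower_top
  have hmon := minpoly.monic hintQ
  have hirr := minpoly.irreducible hintQ
  have hZ : ∀ i, ∃ c : ℤ, (minpoly ℚ β).coeff i = c := fun i =>
    ⟨(minpoly ℤ β).coeff i, by
      rw [minpoly.isIntegrallyClosed_eq_field_fractions' ℚ hint, coeff_map]; simp⟩
  obtain ⟨a, ha⟩ := hZ 3
  obtain ⟨b, hb⟩ := hZ 2
  obtain ⟨c, hc⟩ := hZ 1
  obtain ⟨d, hd⟩ := hZ 0
  have eβ := aeval_quartic _ hdeg hmon β
  have ez := aeval_quartic _ hdeg hmon z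
  have e1 := aeval_quartic _ hdeg hmon (1 : ℚ)
  rw [minpoly.aeval] at eβ
  rw [hz] at ez
  simp only [ha, hb, hc, hd, map_intCast] at eβ ez e1
  have hzz : z * (starRingEnd ℂ) z = 1 := by
    rw [Complex.mul_conj, Complex.normSq_eq_norm_sq, hz1]; simp
  have ezc := congrArg (starRingEnd ℂ) ez
  simp only [map_zero, map_add, map_mul, map_pow, map_intCast] at ezc
  set w := (starRingEnd ℂ) z with hw
  have hrev : (d : ℂ) * z ^ 4 + c * z ^ 3 + b * z ^ 2 + a * z + 1 = 0 := by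
    linear_combination (-z ^ 4) * ezc - ((z * w) ^ 3 + (z * w) ^ 2 + z * w + 1 +
      a * z * ((z * w) ^ 2 + z * w + 1) + b * z ^ 2 * (z * w + 1) + c * z ^ 3) * hzz
  have hmz : minpoly ℚ β = minpoly ℚ z := minpoly.eq_of_irreducible_of_monic hirr hz hmon
  let g : ℚ[X] := C ((c - d * a : ℤ) : ℚ) * X ^ 3 + C ((b - d * b : ℤ) : ℚ) * X ^ 2 +
    C ((a - d * c : ℤ) : ℚ) * X + C ((1 - d * d : ℤ) : ℚ)
  have hg : aeval z g = 0 := by
    simp only [g, map_add, map_mul, map_pow, aeval_X, map_intCast]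
    push_cast
    linear_combination hrev + d * ez
  have hg0 : g = 0 := by
    by_contra hne
    have h5 := minpoly.degree_le_of_ne_zero ℚ z hne hg
    have h6 : g.degree ≤ 3 := degree_cubic_le
    rw [← hmz, degree_eq_natDegree hmon.ne_zero, hdeg] at h5
    exact absurd (h5.trans h6) (by norm_num)
  have g3 : c - d * a = 0 := by
    have := congrArg (fun p : ℚ[X] => p.coeff 3) hg0
    simp only [g, coeff_add, coeff_C_mul, coeff_X_pow, coeff_X, coeff_C, coeff_zero] at this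
    norm_num at this
    exact_mod_cast this
  have g2 : b - d * b = 0 := by
    have := congrArg (fun p : ℚ[X] => p.coeff 2) hg0
    simp only [g, coeff_add, coeff_C_mul, coeff_X_pow, coeff_X, coeff_C, coeff_zero] at this
    norm_num at this
    exact_mod_cast this
  have g0 : 1 - d * d = 0 := by
    have := congrArg (fun p : ℚ[X] => p.coeff 0) hg0
    simp only [g, coeff_add, coeff_C_mul, coeff_X_pow, coeff_X, coeff_C, coeff_zero] at this
    norm_num at this
    exact_mod_cast this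
  have hd1 : d = 1 := by
    rcases Int.eq_one_or_neg_one_of_mul_eq_one (show d * d = 1 by linarith) with h | h
    · exact h
    · exfalso
      have hb0 : b = 0 := by rw [h] at g2; linarith
      have hc0 : c = -a := by rw [h] at g3; linarith
      have hr : (minpoly ℚ β).IsRoot 1 := by
        rw [IsRoot.def, ← coe_aeval_eq_eval, e1, h, hb0, hc0]; push_cast; ring
      have := degree_eq_one_of_irreducible_of_root hirr hr
      rw [degree_eq_natDegree hmon.ne_zero, hdeg] at this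
      exact absurd this (by norm_num)
  have hca : c = a := by rw [hd1] at g3; linarith
  rw [hd1, hca] at eβ ez
  have hlam : β * β⁻¹ = 1 := mul_inv_cancel₀ hβ0.ne'
  have hl0 : 0 < β⁻¹ := inv_pos.2 hβ0
  generalize β⁻¹ = lam at *
  have q1 : (β + lam) ^ 2 - 2 + a * (β + lam) + b = 0 := by
    push_cast at eβ
    linear_combination (-lam ^ 2) * eβ + (2 - β ^ 2 * (β * lam + 1) - a * β * (β * lam + 1) -
      b * (β * lam + 1) - a * lam) * hlam
  have q2c : (z + w) ^ 2 - 2 + a * (z + w) + b = 0 := by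
    push_cast at ez
    linear_combination (-w ^ 2) * ez + (2 - z ^ 2 * (z * w + 1) - a * z * (z * w + 1) -
      b * (z * w + 1) - a * w) * hzz
  have q2 : (2 * z.re) ^ 2 - 2 + a * (2 * z.re) + b = 0 := by
    rw [hw, Complex.add_conj] at q2c
    exact_mod_cast q2c
  have hre : |z.re| ≤ 1 := hz1 ▸ Complex.abs_re_le_norm z
  obtain ⟨r1, r2⟩ := abs_le.1 hre
  obtain ⟨τ, hτ⟩ : ∃ τ, β + lam = τ := ⟨_, rfl⟩
  rw [hτ] at q1 ⊢
  have t1 : 2 < τ := by nlinarith [mul_pos (sub_pos.2 h1) (sub_pos.2 h1)]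
  have t2 : τ < 5 / 2 := by nlinarith [mul_pos (sub_pos.2 h2) (by linarith : 0 < β - 1 / 2)]
  have hsum : τ + 2 * z.re = -a := by
    have : (τ - 2 * z.re) * (τ + 2 * z.re + a) = 0 := by linear_combination q1 - q2
    rcases mul_eq_zero.1 this with h | h <;> linarith
  have a1 : (-5 : ℝ) < a := by linarith
  have a2 : (a : ℝ) < 0 := by linarith
  have a3 : (-5 : ℤ) < a := by exact_mod_cast a1
  have a4 : a < (0 : ℤ) := by exact_mod_cast a2
  interval_cases a
  · exfalso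
    push_cast at q1
    have b1 : (5 : ℝ) < b := by nlinarith
    have b2 : (b : ℝ) < 6 := by nlinarith
    have b3 : (5 : ℤ) < b := by exact_mod_cast b1
    have b4 : b < (6 : ℤ) := by exact_mod_cast b2
    omega
  · exfalso
    push_cast at q1
    have b1 : (3 : ℝ) < b := by nlinarith
    have b2 : (b : ℝ) < 4 := by nlinarith
    have b3 : (3 : ℤ) < b := by exact_mod_cast b1
    have b4 : b < (4 : ℤ) := by exact_mod_cast b2
    omega
  · right
    push_cast at q1 ⊢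
    have b1 : (0 : ℝ) < b := by nlinarith
    have b2 : (b : ℝ) < 2 := by nlinarith
    have b3 : (0 : ℤ) < b := by exact_mod_cast b1
    have b4 : b < (2 : ℤ) := by exact_mod_cast b2
    have : b = 1 := by omega
    rw [this] at q1; push_cast at q1; linarith
  · left
    push_cast at q1 ⊢
    have b1 : (-2 : ℝ) < b := by nlinarith
    have b2 : (b : ℝ) < 0 := by nlinarith
    have b3 : (-2 : ℤ) < b := by exact_mod_cast b1
    have b4 : b < (0 : ℤ) := by exact_mod_cast b2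
    have : b = -1 := by omega
    rw [this] at q1; push_cast at q1; linarith

theorem salem_singular {β : ℝ} (h : IsSalem β) (hdeg : (minpoly ℚ β).natDegree = 4) (h2 : β < 2) :
    IsSingular (bernoulliConv β⁻¹) := by
  rcases salem_classify h hdeg h2 with h3 | h3
  · exact singular_one h.1 h3
  · exact singular_two h.1 h3

theorem exists_nonpisot : ∃ lam : ℝ, 1 / 2 < lam ∧ lam < 1 ∧
    lam ^ 4 - lam ^ 3 - lam ^ 2 - lam + 1 = 0 ∧ ¬ IsPisot lam⁻¹ ∧ IsSingular (bernoulliConv lam) := by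
  have hc : ContinuousOn (fun x : ℝ => x ^ 4 - x ^ 3 - x ^ 2 - x + 1) (Set.Icc (1 / 2) (3 / 5)) := by
    fun_prop
  obtain ⟨lam, ⟨l1, l2⟩, hl⟩ := intermediate_value_Ioo' (by norm_num : (1 / 2 : ℝ) ≤ 3 / 5) hc
    (show (0 : ℝ) ∈ _ by constructor <;> norm_num)
  have hl0 : 0 < lam := by linarith
  have h1 : 1 < lam⁻¹ := (one_lt_inv₀ hl0).2 (by linarith)
  have hτ : (lam⁻¹ + lam⁻¹⁻¹) ^ 2 = (1 : ℤ) * (lam⁻¹ + lam⁻¹⁻¹) + (3 : ℤ) := by
    rw [inv_inv]; push_cast
    field_simp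
    linear_combination hl
  refine ⟨lam, l1, by linarith, hl, not_pisot_one h1 hτ, ?_⟩
  simpa using singular_one h1 hτ

end Vale.Agent.P105
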