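import Vale.Agent.P105.Singular

/-! The two quartic Salem numbers in `(1,2)`: starting frequencies. -/

namespace Vale.Agent.P105

open Finset Real

lemma lucas_int (a1 a0 p q : ℤ) {τ τ' β lam : ℝ} {α : ℂ} (hτ : τ ^ 2 = a1 * τ + a0)
    (hτ' : τ' ^ 2 = a1 * τ' + a0) (hb : β + lam = τ) (hlam : β * lam = 1) (hα : ‖α‖ = 1)
    (hre : 2 * α.re = τ') (j : ℕ) :
    ∃ x y : ℤ, (p + q * τ) * (β ^ j + lam ^ j) = x + y * τ ∧
      (p + q * τ') * (2 * (α ^ j).re) = x + y * τ' := by
  have hq : α ^ 2 = τ' * α - 1 := by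
    have h1 : α * (starRingEnd ℂ) α = 1 := by
      rw [Complex.mul_conj, Complex.normSq_eq_norm_sq, hα]; simp
    have h2 : α + (starRingEnd ℂ) α = (τ' : ℂ) := by
      rw [Complex.add_conj, ← hre]
    linear_combination α * h2 - h1
  induction j using Nat.twoStepInduction with
  | zero => exact ⟨2 * p, 2 * q, by push_cast; ring, by push_cast; simp; ring⟩
  | one =>
    refine ⟨q * a0, p + q * a1, ?_, ?_⟩
    · push_cast; rw [pow_one, pow_one, hb]; linear_combination q * hτ
    · push_cast; rw [pow_one, hre]; linear_combination q * hτ'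
  | more j ih1 ih2 =>
    obtain ⟨x, y, e1, e2⟩ := ih1
    obtain ⟨x', y', e3, e4⟩ := ih2
    have r1 : β ^ (j + 2) + lam ^ (j + 2) =
        τ * (β ^ (j + 1) + lam ^ (j + 1)) - (β ^ j + lam ^ j) := by
      rw [← hb]; linear_combination (-(β ^ j + lam ^ j)) * hlam
    have r2 : (α ^ (j + 2)).re = τ' * (α ^ (j + 1)).re - (α ^ j).re := by
      have : α ^ (j + 2) = τ' * α ^ (j + 1) - α ^ j := by linear_combination α ^ j * hq
      rw [this, Complex.sub_re, Complex.re_ofReal_mul]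
    refine ⟨y' * a0 - x, x' + y' * a1 - y, ?_, ?_⟩
    · push_cast; rw [r1]; linear_combination τ * e3 - e1 + y' * hτ
    · push_cast; rw [r2]; linear_combination τ' * e4 - e2 + y' * hτ'

lemma base_inv (a1 a0 p q : ℤ) {τ τ' β lam : ℝ} {α : ℂ} (hτ : τ ^ 2 = a1 * τ + a0)
    (hτ' : τ' ^ 2 = a1 * τ' + a0) (hs : τ + τ' = a1) (hb : β + lam = τ) (hlam : β * lam = 1)
    (hα : ‖α‖ = 1) (hre : 2 * α.re = τ') (hβ : 5 / 3 ≤ β) (hC : |2 * (p + q * τ')| ≤ 1 / 25000)
    (hA1 : 1 ≤ 2 * (p + q * τ)) (hA2 : 2 * (p + q * τ) ≤ 1000000)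
    (hsup : ∀ j : ℕ, nd (2 * (p + q * τ) * lam ^ j) ≤ 0.429) :
    Inv β lam α 2 (2 * (p + q * τ)) (2 * (p + q * τ)) ((2 * (p + q * τ') : ℝ) : ℂ) 30
      (4 * (2 * (p + q * τ)) ^ 2) := by
  have hlam0 : 0 < lam := by
    by_contra hc
    nlinarith
  have hlam1 : lam ≤ 3 / 5 := by nlinarith
  have e10 : exp 10 = exp 1 ^ 10 := by rw [← exp_nat_mul]; norm_num
  have h3 : exp 10 * exp (-5 * 2) = 1 := by rw [← exp_add]; norm_num
  have x1 : exp 10 ≤ 25000 := by
    rw [e10]
    calc exp 1 ^ 10 ≤ 2.7182818286 ^ 10 := by gcongr; exact exp_one_lt_d9.le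
      _ ≤ _ := by norm_num
  have x2 : 6000 ≤ exp 10 := by
    rw [e10]
    calc (6000 : ℝ) ≤ 2.7182818283 ^ 10 := by norm_num
      _ ≤ _ := by gcongr; exact exp_one_gt_d9.le
  have x0 := exp_pos (-5 * 2)
  have x3 : 1 / 25000 ≤ exp (-5 * 2) := by
    have := mul_le_mul_of_nonneg_right x1 x0.le
    generalize exp (-5 * 2) = e at *
    linarith
  have x4 : exp (-5 * 2) ≤ 1 / 6000 := by
    have := mul_le_mul_of_nonneg_right x2 x0.le
    generalize exp (-5 * 2) = e at *
    linarith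
  have hA : |2 * (p + q * τ)| ≤ β ^ 30 := by
    rw [abs_of_pos (by linarith)]
    calc 2 * (p + q * τ) ≤ 1000000 := hA2
      _ ≤ (5 / 3) ^ 30 := by norm_num
      _ ≤ _ := by gcongr
  constructor
  · intro j
    obtain ⟨x, y, e1, e2⟩ := lucas_int a1 a0 p q hτ hτ' hb hlam hα hre j
    refine ⟨2 * x + y * a1, ?_⟩
    rw [Complex.re_ofReal_mul]
    push_cast
    linear_combination 2 * e1 + 2 * e2 + 2 * y * hs
  · rw [Complex.norm_real, Real.norm_eq_abs]; exact hC.trans x3
  · exact hA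
  · rw [abs_of_pos (by linarith)]; exact hA1
  · exact hA
  · have : exp (4 * 2) = exp 4 * exp 4 := by rw [← exp_add]; norm_num
    rw [this]; push_cast; nlinarith [exp_four_ge]
  · intro j; linarith [hsup j]
  · intro j; linarith [hsup j]
  · intro N
    generalize 2 * (p + q * τ) = A
    have : ∑ j ∈ range N, (nd (A * lam ^ j) ^ 2 + nd (A * lam ^ j) ^ 2) ≤
        ∑ j ∈ range N, 2 * A ^ 2 * (lam ^ j) ^ 2 := by
      refine sum_le_sum fun j _ => ?_
      have := pow_le_pow_left₀ (nd_nonneg _) (nd_le_abs (A * lam ^ j)) 2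
      rw [sq_abs, mul_pow] at this
      linarith
    rw [← mul_sum] at this
    nlinarith [geom_sq_le hlam0 hlam1 N, sq_nonneg A]
  · exact le_rfl

lemma nd_check {A lam A1 A2 l1 l2 : ℝ} (p1 : 0 ≤ A1) (p2 : 0 ≤ l1) (h1 : A1 ≤ A) (h2 : A ≤ A2)
    (h3 : l1 ≤ lam) (h4 : lam ≤ l2) (j : ℕ) (t : ℤ) (c1 : t - 0.429 ≤ A1 * l1 ^ j)
    (c2 : A2 * l2 ^ j ≤ t + 0.429) : nd (A * lam ^ j) ≤ 0.429 := by
  have e1 : A1 * l1 ^ j ≤ A * lam ^ j := by gcongr; linarith
  have e2 : A * lam ^ j ≤ A2 * l2 ^ j := by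
    have : 0 ≤ lam := by linarith
    gcongr; linarith
  refine (nd_le _ t).trans (abs_le.2 ⟨by linarith, by linarith⟩)

lemma nd_tail {A lam A1 A2 l1 l2 : ℝ} (p1 : 0 ≤ A1) (p2 : 0 ≤ l1) (h1 : A1 ≤ A) (h2 : A ≤ A2)
    (h3 : l1 ≤ lam) (h4 : lam ≤ l2) (h5 : l2 ≤ 1) {J j : ℕ} (hj : J ≤ j)
    (c2 : A2 * l2 ^ J ≤ 0.429) : nd (A * lam ^ j) ≤ 0.429 := by
  have h0 : 0 ≤ lam := by linarith
  have hA : 0 ≤ A := by linarith
  refine (nd_le_abs _).trans ?_
  rw [abs_of_nonneg (by positivity)]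
  calc A * lam ^ j ≤ A * lam ^ J := by
        gcongr ?_ * ?_
        exact pow_le_pow_of_le_one h0 (by linarith) hj
    _ ≤ A2 * l2 ^ J := by gcongr; linarith
    _ ≤ _ := c2

lemma lam_lower {β lam τ x : ℝ} (hb : β + lam = τ) (hlam : β * lam = 1) (h1 : x < β)
    (h2 : 0 < x ^ 2 - τ * x + 1) : x ≤ lam := by
  by_contra hc
  subst hb
  nlinarith [mul_pos (sub_pos.2 h1) (sub_pos.2 (not_le.1 hc))]

lemma lam_upper {β lam τ x : ℝ} (hb : β + lam = τ) (hlam : β * lam = 1) (h1 : x < β)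
    (h2 : x ^ 2 - τ * x + 1 < 0) : lam ≤ x := by
  by_contra hc
  subst hb
  nlinarith [mul_pos (sub_pos.2 h1) (sub_pos.2 (not_le.1 hc))]

lemma exists_alpha {t : ℝ} (ht : t ^ 2 ≤ 4) : ∃ α : ℂ, ‖α‖ = 1 ∧ 2 * α.re = t := by
  refine ⟨⟨t / 2, √(1 - t ^ 2 / 4)⟩, ?_, by simp; ring⟩
  rw [Complex.norm_eq_sqrt_sq_add_sq, Real.sq_sqrt (by linarith)]
  simp only [Real.sqrt_eq_one]
  ring

lemma sup_one {A lam : ℝ} (h1 : 308901.99997 ≤ A) (h2 : A ≤ 308902.00000) (h3 : 0.580691831991 ≤ lam)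
    (h4 : lam ≤ 0.580691831994) (j : ℕ) : nd (A * lam ^ j) ≤ 0.429 := by
  have chk := nd_check (by norm_num) (by norm_num) h1 h2 h3 h4
  by_cases hj : 25 ≤ j
  · exact nd_tail (by norm_num) (by norm_num) h1 h2 h3 h4 (by norm_num) hj (by norm_num)
  · have hj' : j < 25 := by omega
    interval_cases j
    · exact chk 0 308902 (by norm_num) (by norm_num)
    · exact chk 1 179377 (by norm_num) (by norm_num)
    · exact chk 2 104163 (by norm_num) (by norm_num)
    · exact chk 3 60486 (by norm_num) (by norm_num)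
    · exact chk 4 35124 (by norm_num) (by norm_num)
    · exact chk 5 20396 (by norm_num) (by norm_num)
    · exact chk 6 11844 (by norm_num) (by norm_num)
    · exact chk 7 6878 (by norm_num) (by norm_num)
    · exact chk 8 3994 (by norm_num) (by norm_num)
    · exact chk 9 2319 (by norm_num) (by norm_num)
    · exact chk 10 1347 (by norm_num) (by norm_num)
    · exact chk 11 782 (by norm_num) (by norm_num)
    · exact chk 12 454 (by norm_num) (by norm_num)
    · exact chk 13 264 (by norm_num) (by norm_num)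
    · exact chk 14 153 (by norm_num) (by norm_num)
    · exact chk 15 89 (by norm_num) (by norm_num)
    · exact chk 16 52 (by norm_num) (by norm_num)
    · exact chk 17 30 (by norm_num) (by norm_num)
    · exact chk 18 17 (by norm_num) (by norm_num)
    · exact chk 19 10 (by norm_num) (by norm_num)
    · exact chk 20 6 (by norm_num) (by norm_num)
    · exact chk 21 3 (by norm_num) (by norm_num)
    · exact chk 22 2 (by norm_num) (by norm_num)
    · exact chk 23 1 (by norm_num) (by norm_num)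
    · exact chk 24 1 (by norm_num) (by norm_num)

theorem singular_one {β : ℝ} (h1 : 1 < β) (hτ : (β + β⁻¹) ^ 2 = (1 : ℤ) * (β + β⁻¹) + (3 : ℤ)) :
    IsSingular (bernoulliConv β⁻¹) := by
  have hβ0 : 0 < β := by linarith
  have hlam : β * β⁻¹ = 1 := mul_inv_cancel₀ hβ0.ne'
  have hl0 : 0 < β⁻¹ := inv_pos.2 hβ0
  generalize β⁻¹ = lam at *
  obtain ⟨τ, hb⟩ : ∃ τ, β + lam = τ := ⟨_, rfl⟩
  rw [hb] at hτ
  have hτ2 : 2 ≤ τ := by nlinarith [sq_nonneg (β - 1)]
  have hτr := hτ
  push_cast at hτr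
  have t1 : 2.30277563773199 ≤ τ := by
    by_contra hc
    nlinarith
  have t2 : τ ≤ 2.30277563773200 := by
    by_contra hc
    nlinarith
  have l1 : 0.580691831991 ≤ lam := lam_lower hb hlam (by linarith) (by norm_num; linarith)
  have l2 : lam ≤ 0.580691831994 := lam_upper hb hlam (by linarith) (by norm_num; linarith)
  have hβ : 5 / 3 ≤ β := by linarith
  obtain ⟨α, hα, hre⟩ := exists_alpha (t := (1 : ℤ) - τ) (by push_cast; nlinarith)
  refine (base_inv 1 3 55807 42837 hτ (by push_cast; linarith) (by ring) hb hlam hα hre hβ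
    ?_ ?_ ?_ ?_).singular hβ hlam hα
  · push_cast; rw [abs_le]; constructor <;> linarith
  · push_cast; linarith
  · push_cast; linarith
  · exact sup_one (by push_cast; linarith) (by push_cast; linarith) l1 l2

lemma sup_two {A lam : ℝ} (h1 : 835540.00002 ≤ A) (h2 : A ≤ 835540.00005) (h3 : 0.531010056458 ≤ lam)
    (h4 : lam ≤ 0.531010056461) (j : ℕ) : nd (A * lam ^ j) ≤ 0.429 := by
  have chk := nd_check (by norm_num) (by norm_num) h1 h2 h3 h4
  by_cases hj : 23 ≤ j
  · exact nd_tail (by norm_num) (by norm_num) h1 h2 h3 h4 (by norm_num) hj (by norm_num)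
  · have hj' : j < 23 := by omega
    interval_cases j
    · exact chk 0 835540 (by norm_num) (by norm_num)
    · exact chk 1 443680 (by norm_num) (by norm_num)
    · exact chk 2 235599 (by norm_num) (by norm_num)
    · exact chk 3 125105 (by norm_num) (by norm_num)
    · exact chk 4 66432 (by norm_num) (by norm_num)
    · exact chk 5 35276 (by norm_num) (by norm_num)
    · exact chk 6 18732 (by norm_num) (by norm_num)
    · exact chk 7 9947 (by norm_num) (by norm_num)
    · exact chk 8 5282 (by norm_num) (by norm_num)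
    · exact chk 9 2805 (by norm_num) (by norm_num)
    · exact chk 10 1489 (by norm_num) (by norm_num)
    · exact chk 11 791 (by norm_num) (by norm_num)
    · exact chk 12 420 (by norm_num) (by norm_num)
    · exact chk 13 223 (by norm_num) (by norm_num)
    · exact chk 14 118 (by norm_num) (by norm_num)
    · exact chk 15 63 (by norm_num) (by norm_num)
    · exact chk 16 33 (by norm_num) (by norm_num)
    · exact chk 17 18 (by norm_num) (by norm_num)
    · exact chk 18 9 (by norm_num) (by norm_num)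
    · exact chk 19 5 (by norm_num) (by norm_num)
    · exact chk 20 3 (by norm_num) (by norm_num)
    · exact chk 21 1 (by norm_num) (by norm_num)
    · exact chk 22 1 (by norm_num) (by norm_num)

theorem singular_two {β : ℝ} (h1 : 1 < β) (hτ : (β + β⁻¹) ^ 2 = (2 : ℤ) * (β + β⁻¹) + (1 : ℤ)) :
    IsSingular (bernoulliConv β⁻¹) := by
  have hβ0 : 0 < β := by linarith
  have hlam : β * β⁻¹ = 1 := mul_inv_cancel₀ hβ0.ne'
  have hl0 : 0 < β⁻¹ := inv_pos.2 hβ0
  generalize β⁻¹ = lam at *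
  obtain ⟨τ, hb⟩ : ∃ τ, β + lam = τ := ⟨_, rfl⟩
  rw [hb] at hτ
  have hτ2 : 2 ≤ τ := by nlinarith [sq_nonneg (β - 1)]
  have hτr := hτ
  push_cast at hτr
  have t1 : 2.41421356237309 ≤ τ := by
    by_contra hc
    nlinarith
  have t2 : τ ≤ 2.41421356237310 := by
    by_contra hc
    nlinarith
  have l1 : 0.531010056458 ≤ lam := lam_lower hb hlam (by linarith) (by norm_num; linarith)
  have l2 : lam ≤ 0.531010056461 := lam_upper hb hlam (by linarith) (by norm_num; linarith)
  have hβ : 5 / 3 ≤ β := by linarith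
  obtain ⟨α, hα, hre⟩ := exists_alpha (t := (2 : ℤ) - τ) (by push_cast; nlinarith)
  refine (base_inv 2 1 61181 147704 hτ (by push_cast; linarith) (by ring) hb hlam hα hre hβ
    ?_ ?_ ?_ ?_).singular hβ hlam hα
  · push_cast; rw [abs_le]; constructor <;> linarith
  · push_cast; linarith
  · push_cast; linarith
  · exact sup_two (by push_cast; linarith) (by push_cast; linarith) l1 l2

end Vale.Agent.P105
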