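import Vale.Agent.P105.Defs

/-! Characters of finite Rademacher sums. -/

namespace Vale.Agent.P105

open Finset Real MeasureTheory

instance : IsProbabilityMeasure coin := ⟨by
  simp [coin, ENNReal.inv_two_add_inv_two]⟩

/-- the product of fair coins -/
noncomputable def PP : Measure (ℕ → Bool) := Measure.infinitePi fun _ : ℕ => coin

instance : IsProbabilityMeasure PP := by unfold PP; infer_instance

lemma integral_coin (f : Bool → ℂ) : ∫ b, f b ∂coin = (f true + f false) / 2 := by
  unfold coin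
  rw [integral_add_measure, integral_smul_measure, integral_smul_measure, integral_dirac,
    integral_dirac]
  · simp; ring
  · exact Integrable.smul_measure (Integrable.of_finite) (by simp)
  · exact Integrable.smul_measure (Integrable.of_finite) (by simp)

lemma integral_prod_PP (n : ℕ) (f : ℕ → Bool → ℂ) :
    ∫ ω, ∏ i ∈ range n, f i (ω i) ∂PP = ∏ i ∈ range n, ∫ b, f i b ∂coin := by
  have h := integral_restrict_infinitePi (fun _ : ℕ => coin) (s := range n)
    (f := fun y => ∏ i : range n, f i (y i)) (by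
      exact (measurable_of_finite _).aestronglyMeasurable)
  rw [integral_fintype_prod_eq_prod (fun (i : range n) => f i)] at h
  rw [← prod_coe_sort (range n) (fun i => ∫ b, f i b ∂coin), ← h]
  refine integral_congr_ae (ae_of_all _ fun ω => ?_)
  exact (prod_coe_sort (range n) (fun i => f i (ω i))).symm

/-- finite Rademacher sum -/
noncomputable def lin (n : ℕ) (θ : ℕ → ℝ) (ω : ℕ → Bool) : ℝ := ∑ i ∈ range n, θ i * sgn (ω i)

/-- `e^{ix}` -/
noncomputable def ee (x : ℝ) : ℂ := Complex.exp (Complex.I * x)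

lemma norm_ee (x : ℝ) : ‖ee x‖ = 1 := by
  unfold ee; rw [mul_comm]; exact Complex.norm_exp_ofReal_mul_I x

lemma ee_add (x y : ℝ) : ee (x + y) = ee x * ee y := by
  unfold ee; rw [← Complex.exp_add]; push_cast; ring_nf

lemma ee_conj (x : ℝ) : (starRingEnd ℂ) (ee x) = ee (-x) := by
  unfold ee; rw [← Complex.exp_conj]; simp

lemma ee_mul_conj (x y : ℝ) : ee x * (starRingEnd ℂ) (ee y) = ee (x - y) := by
  rw [ee_conj, ← ee_add, sub_eq_add_neg]

lemma ee_zero : ee 0 = 1 := by simp [ee]

lemma ee_re (x : ℝ) : (ee x).re = cos x := by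
  unfold ee; rw [mul_comm]; exact Complex.exp_ofReal_mul_I_re x

lemma continuous_ee : Continuous ee := by unfold ee; fun_prop

lemma norm_ee_sub (x y : ℝ) : ‖ee x - ee y‖ ≤ |x - y| := by
  have : ee x - ee y = ee y * (ee (x - y) - 1) := by
    rw [mul_sub, ← ee_add]; ring_nf
  rw [this, norm_mul, norm_ee, one_mul]
  exact Real.norm_exp_I_mul_ofReal_sub_one_le

lemma measurable_lin (n : ℕ) (θ : ℕ → ℝ) : Measurable (lin n θ) := by
  unfold lin
  refine Finset.measurable_sum _ fun i _ => Measurable.const_mul ?_ _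
  exact (measurable_of_finite sgn).comp (measurable_pi_apply i)

lemma measurable_ee_lin (n : ℕ) (θ : ℕ → ℝ) : Measurable fun ω => ee (lin n θ ω) :=
  continuous_ee.measurable.comp (measurable_lin n θ)

lemma integrable_ee_lin (n : ℕ) (θ : ℕ → ℝ) : Integrable (fun ω => ee (lin n θ ω)) PP :=
  Integrable.of_bound (measurable_ee_lin n θ).aestronglyMeasurable 1
    (ae_of_all _ fun _ => (norm_ee _).le)

lemma lin_sub (n : ℕ) (θ η : ℕ → ℝ) (ω : ℕ → Bool) :
    lin n θ ω - lin n η ω = lin n (fun i => θ i - η i) ω := by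
  unfold lin
  rw [← sum_sub_distrib]
  exact sum_congr rfl fun i _ => by ring

lemma integral_ee_lin (n : ℕ) (θ : ℕ → ℝ) :
    ∫ ω, ee (lin n θ ω) ∂PP = ((∏ i ∈ range n, cos (θ i) : ℝ) : ℂ) := by
  have h : ∀ ω, ee (lin n θ ω) = ∏ i ∈ range n, ee (θ i * sgn (ω i)) := by
    intro ω
    unfold ee lin
    rw [← Complex.exp_sum]
    push_cast
    rw [mul_sum]
  simp only [h]
  rw [integral_prod_PP n (fun i b => ee (θ i * sgn b))]
  push_cast
  refine prod_congr rfl fun i _ => ?_
  rw [integral_coin, Complex.cos]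
  simp only [sgn, ee, if_true, Bool.false_eq_true, if_false]
  push_cast
  ring_nf

lemma integral_cos_lin (n : ℕ) (θ : ℕ → ℝ) :
    ∫ ω, cos (lin n θ ω) ∂PP = ∏ i ∈ range n, cos (θ i) := by
  have := integral_re (integrable_ee_lin n θ)
  rw [integral_ee_lin] at this
  simpa only [RCLike.re_to_complex, ee_re, Complex.ofReal_re] using this

lemma integrable_cos_lin (n : ℕ) (θ : ℕ → ℝ) : Integrable (fun ω => cos (lin n θ ω)) PP :=
  Integrable.of_bound (continuous_cos.measurable.comp (measurable_lin n θ)).aestronglyMeasurable 1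
    (ae_of_all _ fun _ => abs_cos_le_one _)

lemma norm_sq_ee_sub (x y : ℝ) : ‖ee x - ee y‖ ^ 2 = 2 - 2 * cos (x - y) := by
  rw [← Complex.normSq_eq_norm_sq, Complex.normSq_sub, Complex.normSq_eq_norm_sq,
    Complex.normSq_eq_norm_sq, norm_ee, norm_ee, ee_mul_conj, ee_re]
  ring

lemma one_sub_prod_le (n : ℕ) (x : ℕ → ℝ) (hx : ∀ i, |x i| ≤ 1) :
    1 - ∏ i ∈ range n, x i ≤ ∑ i ∈ range n, (1 - x i) := by
  induction n with
  | zero => simp
  | succ n ih =>
    rw [prod_range_succ, sum_range_succ]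
    have h1 : |∏ i ∈ range n, x i| ≤ 1 := by
      rw [abs_prod]
      exact prod_le_one (fun i _ => abs_nonneg _) fun i _ => hx i
    have h2 := (abs_le.1 h1).2
    have h3 := (abs_le.1 (hx n)).2
    nlinarith

lemma integral_norm_sq_sub_le (n : ℕ) (θ η : ℕ → ℝ) (d : ℝ)
    (h : ∀ i < n, ∃ t : ℤ, |θ i - η i - t * (2 * π)| ≤ d) :
    ∫ ω, ‖ee (lin n θ ω) - ee (lin n η ω)‖ ^ 2 ∂PP ≤ n * d ^ 2 := by
  simp only [norm_sq_ee_sub, lin_sub]
  rw [integral_sub (integrable_const _) ((integrable_cos_lin _ _).const_mul _), integral_const_mul,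
    integral_cos_lin]
  have h1 := one_sub_prod_le n (fun i => cos (θ i - η i)) fun i => abs_cos_le_one _
  have h2 : ∑ i ∈ range n, (1 - cos (θ i - η i)) ≤ ∑ i ∈ range n, d ^ 2 / 2 := by
    refine sum_le_sum fun i hi => ?_
    obtain ⟨t, ht⟩ := h i (mem_range.1 hi)
    rw [← cos_sub_int_mul_two_pi _ t]
    have := one_sub_sq_div_two_le_cos (x := θ i - η i - t * (2 * π))
    have h3 := sq_le_sq' (abs_le.1 (ht.trans (le_refl d))).1 (abs_le.1 ht).2
    linarith
  simp only [sum_const, card_range, nsmul_eq_mul] at h2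
  simp only [integral_const, probReal_univ, smul_eq_mul, one_mul]
  linarith

lemma norm_sq_sum_ee (M : ℕ) (x : ℕ → ℝ) :
    ‖∑ r ∈ range M, ee (x r)‖ ^ 2 = ∑ r ∈ range M, ∑ r' ∈ range M, cos (x r - x r') := by
  have : ((‖∑ r ∈ range M, ee (x r)‖ ^ 2 : ℝ) : ℂ) =
      ∑ r ∈ range M, ∑ r' ∈ range M, ee (x r - x r') := by
    rw [← Complex.normSq_eq_norm_sq, ← Complex.mul_conj, map_sum, sum_mul_sum]
    simp only [ee_mul_conj]
  have h := congrArg Complex.re this
  simpa [Complex.re_sum, ee_re, -Complex.ofReal_pow] using h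

/-- variance bound for orthogonal blocks -/
lemma integral_blocks_le (n M : ℕ) (η : ℕ → ℕ → ℝ) (a : ℝ)
    (h1 : ∀ r < M, ∏ i ∈ range n, cos (η r i) = a)
    (h2 : ∀ r < M, ∀ r' < M, r ≠ r' → ∏ i ∈ range n, cos (η r i - η r' i) = a ^ 2) :
    ∫ ω, ‖∑ r ∈ range M, ee (lin n (η r) ω) - (a * M : ℝ)‖ ^ 2 ∂PP ≤ M := by
  have e : ∀ ω, ‖∑ r ∈ range M, ee (lin n (η r) ω) - (a * M : ℝ)‖ ^ 2 =
      ∑ r ∈ range M, ∑ r' ∈ range M, cos (lin n (fun i => η r i - η r' i) ω) + (a * M) ^ 2
        - 2 * (a * M) * ∑ r ∈ range M, cos (lin n (η r) ω) := by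
    intro ω
    rw [← Complex.normSq_eq_norm_sq, Complex.normSq_sub, Complex.normSq_eq_norm_sq, norm_sq_sum_ee]
    simp only [lin_sub, Complex.normSq_ofReal, Complex.conj_ofReal, Complex.mul_re,
      Complex.ofReal_re, Complex.ofReal_im, mul_zero, sub_zero, Complex.re_sum, ee_re]
    ring
  simp only [e]
  have i1 : Integrable (fun ω => ∑ r ∈ range M, ∑ r' ∈ range M,
      cos (lin n (fun i => η r i - η r' i) ω)) PP :=
    integrable_finsetSum _ fun r _ => integrable_finsetSum _ fun r' _ => integrable_cos_lin _ _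
  have i2 : Integrable (fun ω => ∑ r ∈ range M, cos (lin n (η r) ω)) PP :=
    integrable_finsetSum _ fun r _ => integrable_cos_lin _ _
  have i3 : Integrable (fun ω => ∑ r ∈ range M, ∑ r' ∈ range M,
      cos (lin n (fun i => η r i - η r' i) ω) + (a * M) ^ 2) PP := i1.add (integrable_const _)
  rw [integral_sub i3 (i2.const_mul _),
    integral_add i1 (integrable_const _), integral_const_mul,
    integral_finsetSum _ fun r _ => integrable_finsetSum _ fun r' _ => integrable_cos_lin _ _,
    integral_finsetSum _ fun r _ => integrable_cos_lin _ _]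
  have e1 : ∑ r ∈ range M, ∫ ω, cos (lin n (η r) ω) ∂PP = a * M := by
    rw [sum_congr rfl fun r hr => (integral_cos_lin n (η r)).trans (h1 r (mem_range.1 hr))]
    simp [mul_comm]
  have e2 : ∑ r ∈ range M, ∫ ω, ∑ r' ∈ range M, cos (lin n (fun i => η r i - η r' i) ω) ∂PP ≤
      ∑ r ∈ range M, (1 + M * a ^ 2) := by
    refine sum_le_sum fun r hr => ?_
    rw [integral_finsetSum _ fun r' _ => integrable_cos_lin _ _]
    simp only [integral_cos_lin]
    calc ∑ r' ∈ range M, ∏ i ∈ range n, cos (η r i - η r' i)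
        ≤ ∑ r' ∈ range M, ((if r' = r then 1 else 0) + a ^ 2) := by
          refine sum_le_sum fun r' hr' => ?_
          by_cases h : r' = r
          · subst h; simp [sq_nonneg]
          · rw [h2 r (mem_range.1 hr) r' (mem_range.1 hr') (Ne.symm h), if_neg h, zero_add]
      _ = _ := by rw [sum_add_distrib, sum_ite_eq' , if_pos hr]; simp
  rw [e1]
  simp only [sum_const, card_range, nsmul_eq_mul] at e2
  simp only [integral_const, probReal_univ, smul_eq_mul, one_mul]
  nlinarith

lemma integral_cos_mul_le {c : ℝ} (hc : c ≠ 0) :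
    ∫ y in (-3 : ℝ)..3, cos (c * y) ≤ 2 / |c| := by
  rw [intervalIntegral.integral_comp_mul_left (fun y => cos y) hc, integral_cos, smul_eq_mul]
  refine (le_abs_self _).trans ?_
  rw [abs_mul, abs_inv, div_eq_inv_mul]
  gcongr
  refine (abs_sub _ _).trans ?_
  linarith [abs_sin_le_one (c * 3), abs_sin_le_one (c * -3)]

/-- near-orthogonality for Lebesgue measure -/
lemma integral_lacunary_le (M : ℕ) (ξ : ℕ → ℝ)
    (h : ∀ r < M, ∀ r' < M, r ≠ r' → (M : ℝ) ≤ |ξ r - ξ r'|) :
    ∫ y in (-3 : ℝ)..3, ‖∑ r ∈ range M, ee (ξ r * y)‖ ^ 2 ≤ 8 * M := by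
  simp only [norm_sq_sum_ee, ← sub_mul]
  have ii : ∀ c : ℝ, IntervalIntegrable (fun y => cos (c * y)) volume (-3) 3 := fun c =>
    (by fun_prop : Continuous fun y => cos (c * y)).intervalIntegrable _ _
  rw [intervalIntegral.integral_finsetSum fun r _ =>
    (by fun_prop : Continuous fun y => ∑ r' ∈ range M, cos ((ξ r - ξ r') * y)).intervalIntegrable _ _]
  calc ∑ r ∈ range M, ∫ y in (-3 : ℝ)..3, ∑ r' ∈ range M, cos ((ξ r - ξ r') * y)
      ≤ ∑ r ∈ range M, (8 : ℝ) := by
        refine sum_le_sum fun r hr => ?_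
        have hM : (0 : ℝ) < M := by
          have := mem_range.1 hr
          exact_mod_cast (by omega : 0 < M)
        rw [intervalIntegral.integral_finsetSum fun r' _ => ii _]
        calc ∑ r' ∈ range M, ∫ y in (-3 : ℝ)..3, cos ((ξ r - ξ r') * y)
            ≤ ∑ r' ∈ range M, ((if r' = r then 6 else 0) + 2 / (M : ℝ)) := by
              refine sum_le_sum fun r' hr' => ?_
              by_cases hh : r' = r
              · subst hh
                have : (0 : ℝ) ≤ 2 / M := by positivity
                simp; norm_num; linarith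
              · have h3 := h r (mem_range.1 hr) r' (mem_range.1 hr') (Ne.symm hh)
                have h4 : ξ r - ξ r' ≠ 0 := by
                  intro h0; rw [h0, abs_zero] at h3; linarith
                rw [if_neg hh, zero_add]
                exact (integral_cos_mul_le h4).trans (by gcongr)
          _ = 8 := by
              rw [sum_add_distrib, sum_ite_eq', if_pos hr, sum_const, card_range, nsmul_eq_mul]
              field_simp; norm_num
    _ = _ := by simp [mul_comm]

end Vale.Agent.P105
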