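import Mathlib

namespace Vale.Agent.P105

open MeasureTheory

/-- the sign `±1` attached to a coin toss -/
def sgn (b : Bool) : ℝ := if b then 1 else -1

/-- the fair coin -/
noncomputable def coin : Measure Bool :=
  (2⁻¹ : ENNReal) • Measure.dirac true + (2⁻¹ : ENNReal) • Measure.dirac false

/-- the Bernoulli convolution: law of `∑ ε_n lam^n` for independent fair signs `ε_n` -/
noncomputable def bernoulliConv (lam : ℝ) : Measure ℝ :=
  (Measure.infinitePi fun _ : ℕ => coin).map fun ω : ℕ → Bool => ∑' n, sgn (ω n) * lam ^ n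

/-- full mass on a Borel set of Lebesgue measure zero -/
def IsSingular (ν : Measure ℝ) : Prop :=
  ∃ N : Set ℝ, MeasurableSet N ∧ volume N = 0 ∧ ν N = 1

/-- real algebraic integer `> 1` whose other conjugates have modulus `< 1` -/
def IsPisot (β : ℝ) : Prop :=
  1 < β ∧ IsIntegral ℤ β ∧
    ∀ z : ℂ, Polynomial.aeval z (minpoly ℚ β) = 0 → z ≠ (β : ℂ) → ‖z‖ < 1

/-- real algebraic integer `> 1` whose other conjugates have modulus `≤ 1`, at least one of them
of modulus exactly `1` -/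
def IsSalem (β : ℝ) : Prop :=
  1 < β ∧ IsIntegral ℤ β ∧
    (∀ z : ℂ, Polynomial.aeval z (minpoly ℚ β) = 0 → z ≠ (β : ℂ) → ‖z‖ ≤ 1) ∧
    ∃ z : ℂ, Polynomial.aeval z (minpoly ℚ β) = 0 ∧ ‖z‖ = 1

end Vale.Agent.P105
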