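import Mathlib

/-! Frequencies with small central conjugate and slowly growing energy. -/

namespace Vale.Agent.P105

open Finset Real

/-- distance to the nearest integer -/
noncomputable def nd (x : ℝ) : ℝ := |x - round x|

lemma nd_nonneg (x : ℝ) : 0 ≤ nd x := abs_nonneg _

lemma nd_le (x : ℝ) (t : ℤ) : nd x ≤ |x - t| := round_le x t

lemma nd_le_abs (x : ℝ) : nd x ≤ |x| := by simpa using nd_le x 0

lemma nd_sub_le (x y : ℝ) : nd (x - y) ≤ nd x + |y| := by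
  refine (nd_le _ (round x)).trans ?_
  have : x - y - round x = (x - round x) - y := by ring
  rw [this]
  exact abs_sub _ _

lemma nd_three (t : ℤ) (x y c : ℝ) : nd (t - x - y - c) ≤ nd x + nd y + |c| := by
  refine (nd_le _ (t - round x - round y)).trans ?_
  have : (t : ℝ) - x - y - c - ((t - round x - round y : ℤ) : ℝ) =
      -((x - round x) + (y - round y) + c) := by push_cast; ring
  rw [this, abs_neg]
  exact (abs_add_le _ _).trans (add_le_add (abs_add_le _ _) le_rfl)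

lemma sq_add_le (x y : ℝ) : (x + y) ^ 2 ≤ 21 / 20 * x ^ 2 + 21 * y ^ 2 := by
  nlinarith [sq_nonneg (x - 20 * y)]

lemma norm_pow_mul_sub_one_le {z : ℂ} (hz : ‖z‖ = 1) (r : ℕ) : ‖z ^ r - 1‖ ≤ r * ‖z - 1‖ := by
  induction r with
  | zero => simp
  | succ r ih =>
    have : z ^ (r + 1) - 1 = z * (z ^ r - 1) + (z - 1) := by ring
    rw [this]
    refine (norm_add_le _ _).trans ?_
    rw [norm_mul, hz]
    push_cast
    linarith

lemma dirichlet_circle {α : ℂ} (hα : ‖α‖ = 1) {M : ℕ} (hM : 0 < M) :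
    ∃ q : ℕ, 0 < q ∧ q ≤ M ∧ ‖α ^ q - 1‖ ≤ 2 * π / M := by
  obtain ⟨θ, rfl⟩ := (Complex.norm_eq_one_iff α).1 hα
  obtain ⟨q, hq0, hqM, hq⟩ := Real.exists_nat_abs_mul_sub_round_le (θ / (2 * π)) hM
  refine ⟨q, hq0, hqM, ?_⟩
  set k : ℤ := round ((q : ℝ) * (θ / (2 * π))) with hk
  have e : Complex.exp (θ * Complex.I) ^ q =
      Complex.exp (Complex.I * ((2 * π * (q * (θ / (2 * π)) - k) : ℝ) : ℂ)) := by
    rw [← Complex.exp_nat_mul, ← Complex.exp_periodic.sub_int_mul_eq k]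
    congr 1
    have : (π : ℂ) ≠ 0 := by exact_mod_cast Real.pi_ne_zero
    push_cast
    field_simp
  rw [e]
  refine Real.norm_exp_I_mul_ofReal_sub_one_le.trans ?_
  rw [Real.norm_eq_abs, abs_mul, abs_of_pos (by positivity : 0 < 2 * π)]
  have hM' : (0 : ℝ) < M := by exact_mod_cast hM
  calc 2 * π * |(q : ℝ) * (θ / (2 * π)) - k| ≤ 2 * π * (1 / (M + 1)) := by gcongr
    _ ≤ 2 * π * (1 / M) := by gcongr; linarith
    _ = _ := by ring

lemma choose_shift {α : ℂ} (hα : ‖α‖ = 1) {M W : ℕ} (hM : 0 < M) (hW : 0 < W) :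
    ∃ m : ℕ, 2 * W ≤ m ∧ ((m ≤ M ∧ ‖α ^ m - 1‖ ≤ 2 * π / M) ∨
      (m ≤ 4 * W ∧ ‖α ^ m - 1‖ ≤ 4 * W * (2 * π / M))) := by
  obtain ⟨q, hq0, hqM, hq⟩ := dirichlet_circle hα hM
  by_cases h : 2 * W ≤ q
  · exact ⟨q, h, Or.inl ⟨hqM, hq⟩⟩
  · have h1 := Nat.div_add_mod (2 * W) q
    have h2 := Nat.mod_lt (2 * W) hq0
    have h3 : 2 * W / q ≤ 2 * W := Nat.div_le_self _ _
    refine ⟨q * (2 * W / q + 1), by rw [mul_add]; omega, Or.inr ⟨by rw [mul_add]; omega, ?_⟩⟩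
    rw [pow_mul]
    refine (norm_pow_mul_sub_one_le (by rw [norm_pow, hα, one_pow]) _).trans ?_
    have : ((2 * W / q + 1 : ℕ) : ℝ) ≤ 4 * W := by
      have : 2 * W / q + 1 ≤ 4 * W := by omega
      exact_mod_cast this
    gcongr

/-- the invariant of the recursive construction -/
structure Inv (β lam : ℝ) (α : ℂ) (l A B : ℝ) (C : ℂ) (V : ℕ) (H : ℝ) : Prop where
  int : ∀ j : ℕ, ∃ t : ℤ, A * β ^ j + B * lam ^ j + 2 * (C * α ^ j).re = 2 * t
  hC : ‖C‖ ≤ exp (-5 * l)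
  hA : |A| ≤ β ^ V
  hA1 : 1 ≤ |A|
  hB : |B| ≤ β ^ V
  hV : (V : ℝ) ≤ exp (4 * l) / 2
  supA : ∀ j : ℕ, nd (A * lam ^ j) ≤ 0.43 - 6 * exp (-5 * l)
  supB : ∀ j : ℕ, nd (B * lam ^ j) ≤ 0.43 - 6 * exp (-5 * l)
  en : ∀ N : ℕ, ∑ j ∈ range N, (nd (A * lam ^ j) ^ 2 + nd (B * lam ^ j) ^ 2) ≤ H
  hl : 2 ≤ l

lemma exp_half_le : exp (1 / 2) ≤ 5 / 3 := by
  have h1 : exp (1 / 2) ^ 2 = exp 1 := by rw [← exp_nat_mul]; norm_num
  have h2 := Real.exp_one_lt_d9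
  nlinarith [exp_pos (1 / 2)]

lemma exp_four_ge : (54 : ℝ) ≤ exp 4 := by
  have h1 : exp 4 = exp 1 ^ 4 := by rw [← exp_nat_mul]; norm_num
  have h2 := Real.exp_one_gt_d9
  rw [h1]
  calc (54 : ℝ) ≤ 2.7182818283 ^ 4 := by norm_num
    _ ≤ _ := by gcongr

variable {β lam : ℝ} {α : ℂ} {l A B : ℝ} {C : ℂ} {V : ℕ} {H : ℝ}

lemma Inv.window (hβ : 5 / 3 ≤ β) (hlam : β * lam = 1) (h : Inv β lam α l A B C V H) :
    ∃ W : ℕ, 0 < W ∧ (W : ℝ) ≤ exp (4 * l) ∧ exp (5 * l) ≤ β ^ W ∧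
      |A| * lam ^ W ≤ exp (-5 * l) ∧ |B| * lam ^ W ≤ exp (-5 * l) := by
  have hl := h.hl
  have hβ0 : 0 < β := by linarith
  have hlam0 : 0 < lam := by
    by_contra hc
    nlinarith
  set u : ℕ := ⌈10 * l⌉₊ with hu
  have hu1 : 10 * l ≤ u := Nat.le_ceil _
  have hu2 : (u : ℝ) < 10 * l + 1 := Nat.ceil_lt_add_one (by linarith)
  have hu0 : 0 < u := by
    have : (0 : ℝ) < u := by linarith
    exact_mod_cast this
  have e1 : exp (5 * l) ≤ β ^ u := by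
    calc exp (5 * l) ≤ exp (u * (1 / 2)) := exp_le_exp.2 (by linarith)
      _ = exp (1 / 2) ^ u := exp_nat_mul _ _
      _ ≤ β ^ u := pow_le_pow_left₀ (exp_pos _).le (exp_half_le.trans hβ) _
  have e2 : 20 * l + 2 ≤ exp (4 * l) := by
    have := Real.pow_div_factorial_le_exp (4 * l) (by linarith) 3
    norm_num [Nat.factorial] at this
    nlinarith [mul_nonneg (by linarith : 0 ≤ l - 2) (sq_nonneg l)]
  have e3 : ∀ X : ℝ, |X| ≤ β ^ V → |X| * lam ^ (V + u) ≤ exp (-5 * l) := by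
    intro X hX
    have h1 : β ^ V * lam ^ V = 1 := by rw [← mul_pow, hlam, one_pow]
    have h2 : β ^ u * lam ^ u = 1 := by rw [← mul_pow, hlam, one_pow]
    have h3 : exp (5 * l) * exp (-5 * l) = 1 := by rw [← exp_add]; simp
    have h4 : lam ^ u ≤ exp (-5 * l) := by
      have : 0 < lam ^ u := by positivity
      nlinarith [exp_pos (-5 * l), mul_le_mul_of_nonneg_right e1 (mul_pos this (exp_pos (-5 * l))).le]
    calc |X| * lam ^ (V + u) ≤ β ^ V * lam ^ (V + u) := by gcongr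
      _ = lam ^ u := by rw [pow_add, ← mul_assoc, h1, one_mul]
      _ ≤ _ := h4
  refine ⟨V + u, by omega, ?_, ?_, e3 A h.hA, e3 B h.hB⟩
  · push_cast; linarith [h.hV]
  · refine e1.trans (pow_le_pow_right₀ (by linarith) (by omega))

lemma geom_sq_le (hlam0 : 0 < lam) (hlam1 : lam ≤ 3 / 5) (N : ℕ) :
    ∑ j ∈ range N, (lam ^ j) ^ 2 ≤ 2 := by
  have h : ∀ N : ℕ, ∑ j ∈ range N, (lam ^ j) ^ 2 ≤ 2 - 2 * (lam ^ N) ^ 2 := by
    intro N
    induction N with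
    | zero => simp
    | succ N ih =>
      rw [sum_range_succ, pow_succ lam N, mul_pow]
      have : lam ^ 2 ≤ 1 / 2 := by nlinarith
      nlinarith [sq_nonneg (lam ^ N)]
  linarith [h N, sq_nonneg (lam ^ N)]

lemma Inv.params (hβ : 5 / 3 ≤ β) (hlam : β * lam = 1) (hα : ‖α‖ = 1)
    (h : Inv β lam α l A B C V H) :
    ∃ (W m : ℕ) (l' : ℝ), 0 < W ∧ 2 * W ≤ m ∧ |A| * lam ^ W ≤ exp (-5 * l) ∧
      |B| * lam ^ W ≤ exp (-5 * l) ∧ (m : ℝ) ≤ 27 * exp (10 * l) ∧ 11 / 5 * l ≤ l' ∧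
      exp (-5 * l) * ‖α ^ m - 1‖ ≤ exp (-5 * l') ∧ (V : ℝ) + m ≤ exp (4 * l') / 2 ∧
      exp (-5 * l') ≤ exp (-5 * l) / 2 := by
  have hl := h.hl
  obtain ⟨W, hW0, hW1, hW2, hWA, hWB⟩ := h.window hβ hlam
  set δ := exp (-5 * l) with hδ
  have hδ0 : 0 < δ := exp_pos _
  set M : ℕ := ⌈26 * exp (10 * l)⌉₊ with hM
  have hM1 : 26 * exp (10 * l) ≤ M := Nat.le_ceil _
  have hM2 : (M : ℝ) < 26 * exp (10 * l) + 1 := Nat.ceil_lt_add_one (by positivity)
  have hM0 : 0 < M := Nat.ceil_pos.2 (by positivity)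
  have x1 : 1 ≤ exp (4 * l) := one_le_exp (by linarith)
  have x2 : 54 * exp (4 * l) ≤ exp (10 * l) := by
    have : exp (10 * l) = exp (6 * l) * exp (4 * l) := by rw [← exp_add]; ring_nf
    rw [this]
    have : 54 ≤ exp (6 * l) := exp_four_ge.trans (exp_le_exp.2 (by linarith))
    gcongr
  have x3 : 2 * π / M ≤ exp (-10 * l) / 4 := by
    have hM' : (0 : ℝ) < M := by exact_mod_cast hM0
    have h3 : exp (10 * l) * exp (-10 * l) = 1 := by rw [← exp_add]; simp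
    rw [div_le_div_iff₀ hM' (by norm_num)]
    have := Real.pi_lt_d2
    nlinarith [mul_le_mul_of_nonneg_left hM1 (exp_pos (-10 * l)).le]
  obtain ⟨m, hm, hcase⟩ := choose_shift hα hM0 hW0
  have hmM : (m : ℝ) ≤ 27 * exp (10 * l) := by
    rcases hcase with ⟨h1, -⟩ | ⟨h1, -⟩
    · have : (m : ℝ) ≤ M := by exact_mod_cast h1
      linarith
    · have : (m : ℝ) ≤ 4 * W := by exact_mod_cast h1
      linarith
  have hl' : ∃ l' : ℝ, 11 / 5 * l ≤ l' ∧ δ * ‖α ^ m - 1‖ ≤ exp (-5 * l') ∧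
      (V : ℝ) + m ≤ exp (4 * l') / 2 := by
    rcases hcase with ⟨h1, h2⟩ | ⟨h1, h2⟩
    · refine ⟨3 * l, by linarith, ?_, ?_⟩
      · calc δ * ‖α ^ m - 1‖ ≤ δ * exp (-10 * l) := by
              gcongr; linarith [exp_pos (-10 * l)]
          _ = _ := by rw [hδ, ← exp_add]; ring_nf
      · have e : exp (4 * (3 * l)) = exp (2 * l) * exp (10 * l) := by rw [← exp_add]; ring_nf
        have : 54 ≤ exp (2 * l) := exp_four_ge.trans (exp_le_exp.2 (by linarith))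
        have h3 : (m : ℝ) ≤ M := by exact_mod_cast h1
        rw [e]
        nlinarith [h.hV, exp_pos (10 * l)]
    · refine ⟨11 / 5 * l, le_rfl, ?_, ?_⟩
      · calc δ * ‖α ^ m - 1‖ ≤ δ * (4 * exp (4 * l) * (exp (-10 * l) / 4)) := by
              gcongr
              exact h2.trans (by gcongr)
          _ = δ * (exp (4 * l) * exp (-10 * l)) := by ring
          _ = _ := by rw [hδ, ← exp_add, ← exp_add]; ring_nf
      · have e : exp (4 * (11 / 5 * l)) = exp (24 / 5 * l) * exp (4 * l) := by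
          rw [← exp_add]; ring_nf
        have : 54 ≤ exp (24 / 5 * l) := exp_four_ge.trans (exp_le_exp.2 (by linarith))
        have h3 : (m : ℝ) ≤ 4 * W := by exact_mod_cast h1
        rw [e]
        nlinarith [h.hV]
  obtain ⟨l', hl1, hl2, hl3⟩ := hl'
  have hδ' : exp (-5 * l') ≤ δ / 2 := by
    have e : exp (-5 * l') ≤ exp (-4) * δ := by
      rw [hδ, ← exp_add]; exact exp_le_exp.2 (by linarith)
    have h3 : exp 4 * exp (-4) = 1 := by rw [← exp_add]; simp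
    have : exp (-4 : ℝ) ≤ 1 / 2 := by nlinarith [exp_four_ge, exp_pos (-4)]
    nlinarith
  exact ⟨W, m, l', hW0, hm, hWA, hWB, hmM, hl1, hl2, hl3, hδ'⟩

lemma Inv.terms (hβ : 5 / 3 ≤ β) (hlam : β * lam = 1) (hα : ‖α‖ = 1)
    (h : Inv β lam α l A B C V H) {W m : ℕ} {δ : ℝ} (hδ : δ = exp (-5 * l)) (hm : 2 * W ≤ m)
    (hWA : |A| * lam ^ W ≤ δ) (hWB : |B| * lam ^ W ≤ δ) :
    (∀ j : ℕ, j ≤ m → nd ((A * β ^ m - A) * lam ^ j) ≤
      nd (B * lam ^ (m - j)) + nd (A * lam ^ j) + 2 * δ) ∧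
    (∀ j : ℕ, j ≤ m → nd (B * lam ^ (m - j)) ≤ δ ∨ nd (A * lam ^ j) ≤ δ) ∧
    (∀ i : ℕ, nd ((A * β ^ m - A) * lam ^ (m + i)) ≤ nd (A * lam ^ i) + δ * lam ^ i) ∧
    (∀ i : ℕ, nd ((B * lam ^ m - B) * lam ^ i) ≤ nd (B * lam ^ i) + δ * lam ^ i) := by
  have hβ0 : 0 < β := by linarith
  have hlam0 : 0 < lam := by
    by_contra hc
    nlinarith
  have hlam1 : lam ≤ 3 / 5 := by nlinarith
  have hpow : ∀ i : ℕ, β ^ i * lam ^ i = 1 := fun i => by rw [← mul_pow, hlam, one_pow]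
  have hc : ∀ j : ℕ, |2 * (C * α ^ j).re| ≤ 2 * δ := by
    intro j
    rw [abs_mul, abs_of_pos (by norm_num : (0 : ℝ) < 2)]
    have := Complex.abs_re_le_norm (C * α ^ j)
    rw [norm_mul, norm_pow, hα, one_pow, mul_one] at this
    linarith [h.hC, hδ]
  have small : ∀ X : ℝ, |X| * lam ^ W ≤ δ → ∀ i j : ℕ, W + i ≤ j → |X * lam ^ j| ≤ δ * lam ^ i := by
    intro X hX i j hj
    rw [abs_mul, abs_of_pos (pow_pos hlam0 j)]
    calc |X| * lam ^ j ≤ |X| * lam ^ (W + i) := by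
          gcongr ?_ * ?_
          exact pow_le_pow_of_le_one hlam0.le (by linarith) hj
      _ = |X| * lam ^ W * lam ^ i := by rw [pow_add]; ring
      _ ≤ _ := by gcongr
  -- the three kinds of terms
  have ta : ∀ j : ℕ, j ≤ m → nd ((A * β ^ m - A) * lam ^ j) ≤
      nd (B * lam ^ (m - j)) + nd (A * lam ^ j) + 2 * δ := by
    intro j hj
    obtain ⟨i, rfl⟩ := Nat.exists_eq_add_of_le hj
    obtain ⟨t, ht⟩ := h.int i
    rw [Nat.add_sub_cancel_left]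
    have e : (A * β ^ (j + i) - A) * lam ^ j =
        ((2 * t : ℤ) : ℝ) - B * lam ^ i - A * lam ^ j - 2 * (C * α ^ i).re := by
      have : A * β ^ (j + i) * lam ^ j = A * β ^ i * (β ^ j * lam ^ j) := by rw [pow_add]; ring
      push_cast
      rw [sub_mul, this, hpow j]
      linarith
    rw [e]
    linarith [nd_three (2 * t) (B * lam ^ i) (A * lam ^ j) (2 * (C * α ^ i).re), hc i]
  have ta' : ∀ j : ℕ, j ≤ m → nd (B * lam ^ (m - j)) ≤ δ ∨ nd (A * lam ^ j) ≤ δ := by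
    intro j hj
    by_cases hjW : W ≤ j
    · right
      simpa using (nd_le_abs _).trans (small A hWA 0 j hjW)
    · left
      simpa using (nd_le_abs _).trans (small B hWB 0 (m - j) (by omega))
  have tb : ∀ i : ℕ, nd ((A * β ^ m - A) * lam ^ (m + i)) ≤ nd (A * lam ^ i) + δ * lam ^ i := by
    intro i
    have e : (A * β ^ m - A) * lam ^ (m + i) = A * lam ^ i - A * lam ^ (m + i) := by
      have : A * β ^ m * lam ^ (m + i) = A * lam ^ i * (β ^ m * lam ^ m) := by rw [pow_add]; ring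
      rw [sub_mul, this, hpow m, mul_one]
    rw [e]
    linarith [nd_sub_le (A * lam ^ i) (A * lam ^ (m + i)), small A hWA i (m + i) (by omega)]
  have tc : ∀ i : ℕ, nd ((B * lam ^ m - B) * lam ^ i) ≤ nd (B * lam ^ i) + δ * lam ^ i := by
    intro i
    have e : (B * lam ^ m - B) * lam ^ i =
        ((0 : ℤ) : ℝ) - B * lam ^ i - 0 - (-(B * lam ^ (m + i))) := by
      rw [pow_add]; push_cast; ring
    have h0 : nd 0 = 0 := by simp [nd]
    rw [e]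
    have := nd_three 0 (B * lam ^ i) 0 (-(B * lam ^ (m + i)))
    rw [abs_neg, h0] at this
    linarith [small B hWB i (m + i) (by omega)]
  exact ⟨ta, ta', tb, tc⟩

lemma Inv.energy (hlam0 : 0 < lam) (hlam1 : lam ≤ 3 / 5)
    (h : Inv β lam α l A B C V H) {m : ℕ} {δ : ℝ} (hδ : δ = exp (-5 * l))
    (hmM : (m : ℝ) ≤ 27 * exp (10 * l))
    (ta : ∀ j : ℕ, j ≤ m → nd ((A * β ^ m - A) * lam ^ j) ≤
      nd (B * lam ^ (m - j)) + nd (A * lam ^ j) + 2 * δ)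
    (ta' : ∀ j : ℕ, j ≤ m → nd (B * lam ^ (m - j)) ≤ δ ∨ nd (A * lam ^ j) ≤ δ)
    (tb : ∀ i : ℕ, nd ((A * β ^ m - A) * lam ^ (m + i)) ≤ nd (A * lam ^ i) + δ * lam ^ i)
    (tc : ∀ i : ℕ, nd ((B * lam ^ m - B) * lam ^ i) ≤ nd (B * lam ^ i) + δ * lam ^ i) (N : ℕ) :
    ∑ j ∈ range N, (nd ((A * β ^ m - A) * lam ^ j) ^ 2 + nd ((B * lam ^ m - B) * lam ^ j) ^ 2) ≤
      21 / 10 * H + 5300 := by
  have hδ0 : 0 < δ := hδ ▸ exp_pos _
  have hδ1 : δ ≤ 1 := by rw [hδ]; exact exp_le_one_iff.2 (by linarith [h.hl])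
  have s1 : ∑ j ∈ range N, nd ((A * β ^ m - A) * lam ^ j) ^ 2 ≤
      ∑ j ∈ range (m + N), nd ((A * β ^ m - A) * lam ^ j) ^ 2 :=
    sum_le_sum_of_subset_of_nonneg (range_subset_range.2 (by omega)) fun _ _ _ => sq_nonneg _
  rw [sum_range_add] at s1
  have s2 : ∑ j ∈ range m, nd ((A * β ^ m - A) * lam ^ j) ^ 2 ≤
      ∑ j ∈ range m, (21 / 20 * (nd (A * lam ^ j) ^ 2 + nd (B * lam ^ (m - j)) ^ 2) +
        189 * δ ^ 2) := by
    refine sum_le_sum fun j hj => ?_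
    have hj' : j ≤ m := (mem_range.1 hj).le
    have h1 := ta j hj'
    have h0 := nd_nonneg ((A * β ^ m - A) * lam ^ j)
    rcases ta' j hj' with h4 | h4
    · have : nd ((A * β ^ m - A) * lam ^ j) ^ 2 ≤ (nd (A * lam ^ j) + 3 * δ) ^ 2 := by
        gcongr; linarith
      nlinarith [sq_add_le (nd (A * lam ^ j)) (3 * δ), sq_nonneg (nd (B * lam ^ (m - j)))]
    · have : nd ((A * β ^ m - A) * lam ^ j) ^ 2 ≤ (nd (B * lam ^ (m - j)) + 3 * δ) ^ 2 := by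
        gcongr; linarith
      nlinarith [sq_add_le (nd (B * lam ^ (m - j))) (3 * δ), sq_nonneg (nd (A * lam ^ j))]
  have s3 : ∑ j ∈ range m, (nd (A * lam ^ j) ^ 2 + nd (B * lam ^ (m - j)) ^ 2) ≤ H := by
    refine le_trans ?_ (h.en (m + 1))
    rw [sum_add_distrib, sum_add_distrib]
    refine add_le_add ?_ ?_
    · rw [sum_range_succ]; linarith [sq_nonneg (nd (A * lam ^ m))]
    · rw [← sum_range_reflect _ (m + 1), sum_range_succ]
      simp only [add_tsub_cancel_right]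
      linarith [sq_nonneg (nd (B * lam ^ (m - m)))]
  have s4 : (m : ℝ) * (189 * δ ^ 2) ≤ 189 * 27 := by
    have h3 : exp (10 * l) * δ ^ 2 = 1 := by
      rw [hδ, ← exp_nat_mul, ← exp_add]; simp; ring
    nlinarith [mul_le_mul_of_nonneg_right hmM (sq_nonneg δ)]
  rw [sum_add_distrib, ← mul_sum, sum_const, card_range, nsmul_eq_mul] at s2
  have s5 : ∑ i ∈ range N, (nd ((A * β ^ m - A) * lam ^ (m + i)) ^ 2 +
      nd ((B * lam ^ m - B) * lam ^ i) ^ 2) ≤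
      ∑ i ∈ range N, (21 / 20 * (nd (A * lam ^ i) ^ 2 + nd (B * lam ^ i) ^ 2) +
        42 * δ ^ 2 * (lam ^ i) ^ 2) := by
    refine sum_le_sum fun i _ => ?_
    have h1 : nd ((A * β ^ m - A) * lam ^ (m + i)) ^ 2 ≤ (nd (A * lam ^ i) + δ * lam ^ i) ^ 2 :=
      pow_le_pow_left₀ (nd_nonneg _) (tb i) 2
    have h2 : nd ((B * lam ^ m - B) * lam ^ i) ^ 2 ≤ (nd (B * lam ^ i) + δ * lam ^ i) ^ 2 :=
      pow_le_pow_left₀ (nd_nonneg _) (tc i) 2
    nlinarith [sq_add_le (nd (A * lam ^ i)) (δ * lam ^ i), sq_add_le (nd (B * lam ^ i)) (δ * lam ^ i)]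
  rw [sum_add_distrib, sum_add_distrib, ← mul_sum, ← mul_sum] at s5
  have s6 := geom_sq_le hlam0 hlam1 N
  have s7 := h.en N
  have s8 : δ ^ 2 ≤ 1 := pow_le_one₀ hδ0.le hδ1
  have s9 : 42 * δ ^ 2 * ∑ i ∈ range N, (lam ^ i) ^ 2 ≤ 42 * 1 * 2 := by
    gcongr
  rw [sum_add_distrib]
  linarith

lemma Inv.step (hβ : 5 / 3 ≤ β) (hlam : β * lam = 1) (hα : ‖α‖ = 1)
    (h : Inv β lam α l A B C V H) :
    ∃ (l' A' B' : ℝ) (C' : ℂ) (V' : ℕ), 11 / 5 * l ≤ l' ∧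
      Inv β lam α l' A' B' C' V' (21 / 10 * H + 5300) := by
  have hl := h.hl
  have hβ0 : 0 < β := by linarith
  have hlam0 : 0 < lam := by
    by_contra hc
    nlinarith
  have hlam1 : lam ≤ 3 / 5 := by nlinarith
  obtain ⟨W, m, l', hW0, hm, hWA, hWB, hmM, hl1, hl2, hl3, hδ'⟩ := h.params hβ hlam hα
  obtain ⟨ta, ta', tb, tc⟩ := h.terms hβ hlam hα rfl hm hWA hWB
  have hen := h.energy hlam0 hlam1 rfl hmM ta ta' tb tc
  have hC := h.hC
  have hsA := h.supA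
  have hsB := h.supB
  generalize exp (-5 * l) = δ at *
  have hδ0 : 0 < δ := by linarith [exp_pos (-5 * l')]
  have hlamp : ∀ i : ℕ, δ * lam ^ i ≤ δ := fun i =>
    mul_le_of_le_one_right hδ0.le (pow_le_one₀ hlam0.le (by linarith))
  have hβm : 2 ≤ β ^ m := by
    calc (2 : ℝ) ≤ (5 / 3) ^ 2 := by norm_num
      _ ≤ β ^ 2 := by gcongr
      _ ≤ β ^ m := pow_le_pow_right₀ (by linarith) (by omega)
  refine ⟨l', A * β ^ m - A, B * lam ^ m - B, C * α ^ m - C, V + m, hl1, ?_⟩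
  constructor
  · intro j
    obtain ⟨t, ht⟩ := h.int j
    obtain ⟨t', ht'⟩ := h.int (m + j)
    refine ⟨t' - t, ?_⟩
    have e : (C * α ^ m - C) * α ^ j = C * α ^ (m + j) - C * α ^ j := by rw [pow_add]; ring
    rw [e, Complex.sub_re]
    rw [pow_add β, pow_add lam] at ht'
    push_cast
    linarith
  · have e : C * α ^ m - C = C * (α ^ m - 1) := by ring
    rw [e, norm_mul]
    exact le_trans (by gcongr) hl2
  · have e : A * β ^ m - A = A * (β ^ m - 1) := by ring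
    rw [e, abs_mul, abs_of_nonneg (by linarith : 0 ≤ β ^ m - 1), pow_add]
    exact mul_le_mul h.hA (by linarith) (by linarith) (by positivity)
  · have e : A * β ^ m - A = A * (β ^ m - 1) := by ring
    rw [e, abs_mul, abs_of_nonneg (by linarith : 0 ≤ β ^ m - 1)]
    nlinarith [h.hA1]
  · have e : B * lam ^ m - B = -(B * (1 - lam ^ m)) := by ring
    have h1 : lam ^ m ≤ 1 := pow_le_one₀ hlam0.le (by linarith)
    have h2 : 0 < lam ^ m := by positivity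
    rw [e, abs_neg, abs_mul, abs_of_nonneg (by linarith : 0 ≤ 1 - lam ^ m)]
    calc |B| * (1 - lam ^ m) ≤ |B| := mul_le_of_le_one_right (abs_nonneg _) (by linarith)
      _ ≤ β ^ V := h.hB
      _ ≤ _ := pow_le_pow_right₀ (by linarith) (by omega)
  · push_cast; exact hl3
  · intro j
    by_cases hj : j ≤ m
    · have h1 := ta j hj
      have h2 := hsA j
      have h3 := hsB (m - j)
      rcases ta' j hj with h4 | h4 <;> linarith
    · obtain ⟨i, rfl⟩ := Nat.exists_eq_add_of_le (le_of_not_ge hj)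
      linarith [tb i, hlamp i, hsA i]
  · intro j
    linarith [tc j, hlamp j, hsB j]
  · exact hen
  · linarith

lemma Inv.iterate (hβ : 5 / 3 ≤ β) (hlam : β * lam = 1) (hα : ‖α‖ = 1)
    (h : Inv β lam α l A B C V H) (L : ℝ) :
    ∃ (l' A' B' : ℝ) (C' : ℂ) (V' : ℕ) (H' : ℝ), Inv β lam α l' A' B' C' V' H' ∧ L ≤ l' ∧
      140 * (2 * H' + 1) ≤ l' := by
  have key : ∀ J : ℕ, ∃ (l' A' B' : ℝ) (C' : ℂ) (V' : ℕ) (H' : ℝ),
      Inv β lam α l' A' B' C' V' H' ∧ (11 / 5) ^ J ≤ l' ∧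
        H' + 5000 ≤ (H + 5000) * (21 / 10) ^ J := by
    intro J
    induction J with
    | zero => exact ⟨l, A, B, C, V, H, h, by linarith [h.hl, pow_zero (11 / 5 : ℝ)], by simp⟩
    | succ J ih =>
      obtain ⟨l', A', B', C', V', H', h1, h2, h3⟩ := ih
      obtain ⟨l'', A'', B'', C'', V'', h4, h5⟩ := h1.step hβ hlam hα
      refine ⟨l'', A'', B'', C'', V'', _, h5, ?_, ?_⟩
      · rw [pow_succ]; linarith
      · rw [pow_succ]; nlinarith
  have hH : 0 ≤ H := by simpa using h.en 0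
  obtain ⟨J1, hJ1⟩ := pow_unbounded_of_one_lt L (by norm_num : (1 : ℝ) < 11 / 5)
  obtain ⟨J2, hJ2⟩ := pow_unbounded_of_one_lt (280 * (H + 5000)) (by norm_num : (1 : ℝ) < 22 / 21)
  obtain ⟨l', A', B', C', V', H', h1, h2, h3⟩ := key (J1 + J2)
  refine ⟨l', A', B', C', V', H', h1, ?_, ?_⟩
  · refine hJ1.le.trans (le_trans ?_ h2)
    exact pow_le_pow_right₀ (by norm_num) (by omega)
  · have e : (11 / 5 : ℝ) ^ (J1 + J2) = (22 / 21) ^ (J1 + J2) * (21 / 10) ^ (J1 + J2) := by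
      rw [← mul_pow]; norm_num
    have h4 : (22 / 21 : ℝ) ^ J2 ≤ (22 / 21) ^ (J1 + J2) := pow_le_pow_right₀ (by norm_num) (by omega)
    have h5 : (0 : ℝ) < (21 / 10) ^ (J1 + J2) := by positivity
    nlinarith

end Vale.Agent.P105
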