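import Vale.Agent.P105.Test

/-! From the invariant to singularity. -/

namespace Vale.Agent.P105

open Finset Real MeasureTheory Filter

variable {β lam : ℝ} {α : ℂ} {l A B : ℝ} {C : ℂ} {V : ℕ} {H : ℝ}

lemma Inv.far (hβ : 5 / 3 ≤ β) (hlam : β * lam = 1) (hα : ‖α‖ = 1)
    (h : Inv β lam α l A B C V H) {w : ℕ} (hWA : |A| * lam ^ (w + 1) ≤ exp (-5 * l))
    (hWB : |B| * lam ^ (w + 1) ≤ exp (-5 * l)) (u i : ℕ) (hi : ¬ (u ≤ i ∧ i < u + 2 * (w + 1))) :
    ∃ t : ℤ, |π * A * β ^ (u + w) * lam ^ i - 0 - t * (2 * π)| ≤ 3 * π * exp (-5 * l) := by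
  have hlam0 : 0 < lam := by
    by_contra hc
    nlinarith
  have hlam1 : lam ≤ 1 := by nlinarith
  have hpow : ∀ i : ℕ, β ^ i * lam ^ i = 1 := fun i => by rw [← mul_pow, hlam, one_pow]
  have small : ∀ X : ℝ, |X| * lam ^ (w + 1) ≤ exp (-5 * l) → ∀ j : ℕ, w + 1 ≤ j →
      |X * lam ^ j| ≤ exp (-5 * l) := by
    intro X hX j hj
    rw [abs_mul, abs_of_pos (pow_pos hlam0 j)]
    refine le_trans ?_ hX
    gcongr ?_ * ?_
    exact pow_le_pow_of_le_one hlam0.le hlam1 hj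
  by_cases h1 : i < u
  · obtain ⟨j, hj⟩ : ∃ j, u + w = i + j := ⟨u + w - i, by omega⟩
    obtain ⟨t, ht⟩ := h.int j
    refine ⟨t, ?_⟩
    have e : π * A * β ^ (u + w) * lam ^ i - 0 - t * (2 * π) =
        -(π * (B * lam ^ j + 2 * (C * α ^ j).re)) := by
      have : π * A * β ^ (i + j) * lam ^ i = π * (A * β ^ j) * (β ^ i * lam ^ i) := by
        rw [pow_add]; ring
      rw [hj, this, hpow]
      linear_combination π * ht
    rw [e, abs_neg, abs_mul, abs_of_pos pi_pos]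
    have := (abs_add_le _ _).trans (add_le_add (small B hWB j (by omega)) (h.central hα j))
    nlinarith [pi_pos]
  · obtain ⟨j, hj⟩ : ∃ j, i = u + w + j := ⟨i - (u + w), by omega⟩
    refine ⟨0, ?_⟩
    have e : π * A * β ^ (u + w) * lam ^ i - 0 - ((0 : ℤ) : ℝ) * (2 * π) = π * (A * lam ^ j) := by
      have : π * A * β ^ (u + w) * lam ^ (u + w + j) =
          π * (A * lam ^ j) * (β ^ (u + w) * lam ^ (u + w)) := by
        rw [pow_add lam]; ring
      rw [hj, this, hpow]; simp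
    rw [e, abs_mul, abs_of_pos pi_pos]
    have := small A hWA j (by omega)
    nlinarith [pi_pos, exp_pos (-5 * l)]

lemma Inv.test (hβ : 5 / 3 ≤ β) (hlam : β * lam = 1) (hα : ‖α‖ = 1)
    (h : Inv β lam α l A B C V H) (hH : 140 * (2 * H + 1) ≤ l) :
    ∃ S : Set ℝ, MeasurableSet S ∧ volume S ≤ ENNReal.ofReal (6000 * exp (-l)) ∧
      bernoulliConv lam Sᶜ ≤ ENNReal.ofReal (6000 * exp (-l)) := by
  have hl := h.hl
  have hβ0 : 0 < β := by linarith
  have hlam0 : 0 < lam := by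
    by_contra hc
    nlinarith
  have hlam1 : lam ≤ 3 / 5 := by nlinarith
  have hpow : ∀ i : ℕ, β ^ i * lam ^ i = 1 := fun i => by rw [← mul_pow, hlam, one_pow]
  obtain ⟨W, hW0, hW1, hW2, hWA, hWB⟩ := h.window hβ hlam
  obtain ⟨w, rfl⟩ : ∃ w, W = w + 1 := ⟨W - 1, by omega⟩
  set M : ℕ := ⌈exp (2 * l)⌉₊ with hM
  have hM1 : exp (2 * l) ≤ M := Nat.le_ceil _
  have hM2 : (M : ℝ) < exp (2 * l) + 1 := Nat.ceil_lt_add_one (by positivity)
  have hM0 : 0 < M := Nat.ceil_pos.2 (by positivity)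
  have x1 : 54 ≤ exp (2 * l) := exp_four_ge.trans (exp_le_exp.2 (by linarith))
  have ha := h.coeff_lower hlam hα hH hW1
  set a := ∏ e ∈ range (2 * (w + 1)), cos (π * A * β ^ w * lam ^ e) with hadef
  have ha0 : a ≠ 0 := by
    intro h0; rw [h0] at ha; linarith [exp_pos (-l)]
  let ξ : ℕ → ℝ := fun r => π * A * β ^ (2 * (w + 1) * r + w)
  let η : ℕ → ℕ → ℝ := fun r i =>
    if 2 * (w + 1) * r ≤ i ∧ i < 2 * (w + 1) * r + 2 * (w + 1) then ξ r * lam ^ i else 0
  have hn : ∀ r < M, 2 * (w + 1) * r + 2 * (w + 1) ≤ 2 * (w + 1) * M := fun r hr => by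
    rw [← Nat.mul_succ]; exact Nat.mul_le_mul_left _ hr
  have F2 : ∀ r < M, ∏ i ∈ range (2 * (w + 1) * M), cos (η r i) = a := by
    intro r hr
    rw [prod_block _ _ _ (hn r hr)]
    refine prod_congr rfl fun e _ => ?_
    congr 1
    have : ξ r * lam ^ (2 * (w + 1) * r + e) = π * A * β ^ w * lam ^ e *
        (β ^ (2 * (w + 1) * r) * lam ^ (2 * (w + 1) * r)) := by
      simp only [ξ, pow_add]; ring
    rw [this, hpow, mul_one]
  have F3 : ∀ r < M, ∀ r' < M, r ≠ r' →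
      ∏ i ∈ range (2 * (w + 1) * M), cos (η r i - η r' i) = a ^ 2 := by
    intro r hr r' hr' hne
    rw [sq]
    nth_rewrite 1 [← F2 r hr]
    rw [← F2 r' hr', ← prod_mul_distrib]
    refine prod_congr rfl fun i _ => ?_
    have : η r i = 0 ∨ η r' i = 0 := by
      by_contra hc
      rw [not_or] at hc
      have c1 : 2 * (w + 1) * r ≤ i ∧ i < 2 * (w + 1) * r + 2 * (w + 1) := by
        by_contra h1; exact hc.1 (if_neg h1)
      have c2 : 2 * (w + 1) * r' ≤ i ∧ i < 2 * (w + 1) * r' + 2 * (w + 1) := by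
        by_contra h1; exact hc.2 (if_neg h1)
      rcases lt_or_gt_of_ne hne with h1 | h1
      · have := Nat.mul_le_mul_left (2 * (w + 1)) (Nat.succ_le_of_lt h1)
        rw [Nat.mul_succ] at this; omega
      · have := Nat.mul_le_mul_left (2 * (w + 1)) (Nat.succ_le_of_lt h1)
        rw [Nat.mul_succ] at this; omega
    rcases this with h0 | h0 <;> simp [h0]
  have F5 : ∀ r < M, ∀ i < 2 * (w + 1) * M,
      ∃ t : ℤ, |ξ r * lam ^ i - η r i - t * (2 * π)| ≤ 3 * π * exp (-5 * l) := by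
    intro r _ i _
    by_cases hi : 2 * (w + 1) * r ≤ i ∧ i < 2 * (w + 1) * r + 2 * (w + 1)
    · refine ⟨0, ?_⟩
      simp only [η, if_pos hi]
      simp only [sub_self, Int.cast_zero, zero_mul, abs_zero]
      positivity
    · simp only [η, if_neg hi]
      exact h.far hβ hlam hα hWA hWB _ i hi
  have F6 : ∀ r < M, |ξ r| * (5 / 2 * lam ^ (2 * (w + 1) * M)) ≤ 3 * π * exp (-5 * l) := by
    intro r hr
    obtain ⟨j, hj⟩ : ∃ j, 2 * (w + 1) * M = 2 * (w + 1) * r + w + (w + 1 + j) :=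
      ⟨2 * (w + 1) * M - (2 * (w + 1) * r + w + (w + 1)), by have := hn r hr; omega⟩
    have e : |ξ r| * (5 / 2 * lam ^ (2 * (w + 1) * M)) =
        5 / 2 * π * (|A| * lam ^ (w + 1)) * lam ^ j *
          (β ^ (2 * (w + 1) * r + w) * lam ^ (2 * (w + 1) * r + w)) := by
      simp only [ξ]
      rw [hj, abs_mul, abs_mul, abs_of_pos pi_pos, abs_of_pos (pow_pos hβ0 _), pow_add lam,
        pow_add lam (w + 1)]
      ring
    rw [e, hpow, mul_one]
    have : lam ^ j ≤ 1 := pow_le_one₀ hlam0.le (by linarith)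
    calc 5 / 2 * π * (|A| * lam ^ (w + 1)) * lam ^ j ≤ 5 / 2 * π * exp (-5 * l) * 1 := by gcongr
      _ ≤ _ := by nlinarith [mul_pos pi_pos (exp_pos (-5 * l))]
  have F7 : ∀ r < M, ∀ r' < M, r ≠ r' → (M : ℝ) ≤ |ξ r - ξ r'| := by
    have key : ∀ r r' : ℕ, r < r' → (M : ℝ) ≤ |ξ r' - ξ r| := by
      intro r r' hr
      obtain ⟨j, hj⟩ : ∃ j, 2 * (w + 1) * r' + w = 2 * (w + 1) * r + w + (w + 1 + j) := by
        have := Nat.mul_le_mul_left (2 * (w + 1)) (Nat.succ_le_of_lt hr)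
        rw [Nat.mul_succ] at this
        exact ⟨2 * (w + 1) * r' + w - (2 * (w + 1) * r + w + (w + 1)), by omega⟩
      have b1 : 1 ≤ β ^ (2 * (w + 1) * r + w) := one_le_pow₀ (by linarith)
      have b2 : β ^ (w + 1) ≤ β ^ (w + 1 + j) := pow_le_pow_right₀ (by linarith) (by omega)
      have b3 : exp (2 * l) * 54 ≤ exp (5 * l) := by
        have : exp (5 * l) = exp (2 * l) * exp (3 * l) := by rw [← exp_add]; ring_nf
        rw [this]
        have : 54 ≤ exp (3 * l) := exp_four_ge.trans (exp_le_exp.2 (by linarith))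
        gcongr
      have b4 : (M : ℝ) ≤ β ^ (w + 1 + j) - 1 := by linarith
      have e : ξ r' - ξ r = π * A * β ^ (2 * (w + 1) * r + w) * (β ^ (w + 1 + j) - 1) := by
        simp only [ξ]; rw [hj, pow_add β (2 * (w + 1) * r + w)]; ring
      have hM' : (0 : ℝ) ≤ M := by positivity
      rw [e, abs_mul, abs_mul, abs_mul, abs_of_pos pi_pos, abs_of_pos (pow_pos hβ0 _),
        abs_of_nonneg (hM'.trans b4)]
      calc (M : ℝ) = 1 * 1 * 1 * M := by ring
        _ ≤ _ := by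
          gcongr
          · linarith [pi_gt_three]
          · exact h.hA1
    intro r _ r' _ hne
    rcases lt_or_gt_of_ne hne with h1 | h1
    · rw [abs_sub_comm]; exact key r r' h1
    · exact key r' r h1
  obtain ⟨S, hS1, hS2, hS3⟩ := test_abstract hlam0 hlam1 _ M hM0 ξ η a _ ha0 F2 F3 F5 F6 F7
  have ha2 : 0 < a ^ 2 := by positivity
  have hM' : (0 : ℝ) < M := by exact_mod_cast hM0
  have q1 : 1 / (a ^ 2 * M) ≤ exp (-l) := by
    rw [div_le_iff₀ (by positivity)]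
    have : exp (-l) * (exp (-l) * exp (2 * l)) = 1 := by rw [← exp_add, ← exp_add]; simp; ring
    rw [← this]
    gcongr
  have q2 : (((2 * (w + 1) * M : ℕ) : ℝ) + 1) * (3 * π * exp (-5 * l)) ^ 2 / a ^ 2 ≤
      450 * exp (-l) := by
    rw [div_le_iff₀ ha2]
    have y1 : 1 ≤ exp (4 * l) := one_le_exp (by linarith)
    have n1 : ((2 * (w + 1) * M : ℕ) : ℝ) + 1 ≤ 5 * (exp (4 * l) * exp (2 * l)) := by
      have : ((2 * (w + 1) * M : ℕ) : ℝ) = 2 * ((w + 1 : ℕ) : ℝ) * M := by push_cast; ring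
      rw [this]
      have : 2 * ((w + 1 : ℕ) : ℝ) * M ≤ 2 * exp (4 * l) * (2 * exp (2 * l)) := by
        gcongr; linarith
      nlinarith
    have hπ : π ^ 2 ≤ 10 := by nlinarith [Real.pi_lt_d2, Real.pi_pos]
    have n2 : (3 * π * exp (-5 * l)) ^ 2 ≤ 90 * exp (-5 * l) ^ 2 := by
      rw [mul_pow, mul_pow]; gcongr; linarith
    have n3 : exp (4 * l) * exp (2 * l) * exp (-5 * l) ^ 2 ≤ exp (-l) * exp (-l) := by
      rw [← exp_nat_mul, ← exp_add, ← exp_add, ← exp_add]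
      apply exp_le_exp.2; push_cast; linarith
    calc (((2 * (w + 1) * M : ℕ) : ℝ) + 1) * (3 * π * exp (-5 * l)) ^ 2
        ≤ (5 * (exp (4 * l) * exp (2 * l))) * (90 * exp (-5 * l) ^ 2) := by gcongr
      _ = 450 * (exp (4 * l) * exp (2 * l) * exp (-5 * l) ^ 2) := by ring
      _ ≤ 450 * (exp (-l) * a ^ 2) :=
          mul_le_mul_of_nonneg_left
            (n3.trans (mul_le_mul_of_nonneg_left ha (exp_pos _).le)) (by norm_num)
      _ = _ := by ring
  refine ⟨S, hS1, hS2.trans (ENNReal.ofReal_le_ofReal ?_), hS3.trans (ENNReal.ofReal_le_ofReal ?_)⟩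
  · have : 32 / (a ^ 2 * M) = 32 * (1 / (a ^ 2 * M)) := by ring
    linarith [exp_pos (-l)]
  · linarith [exp_pos (-l)]

theorem Inv.singular (hβ : 5 / 3 ≤ β) (hlam : β * lam = 1) (hα : ‖α‖ = 1)
    (h : Inv β lam α l A B C V H) : IsSingular (bernoulliConv lam) := by
  have hlam0 : 0 < lam := by
    by_contra hc
    nlinarith
  have hlam1 : lam < 1 := by nlinarith
  have hprob : IsProbabilityMeasure (bernoulliConv lam) :=
    Measure.isProbabilityMeasure_map (μ := PP) (measurable_YY hlam0 hlam1).aemeasurable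
  have key : ∀ j : ℕ, ∃ S : Set ℝ, MeasurableSet S ∧
      volume S ≤ ENNReal.ofReal (6000 * exp (-1) ^ j) ∧
      bernoulliConv lam Sᶜ ≤ ENNReal.ofReal (6000 * exp (-1) ^ j) := by
    intro j
    obtain ⟨l', A', B', C', V', H', h1, h2, h3⟩ := h.iterate hβ hlam hα j
    obtain ⟨S, e1, e2, e3⟩ := h1.test hβ hlam hα h3
    have : 6000 * exp (-l') ≤ 6000 * exp (-1) ^ j := by
      rw [← exp_nat_mul]; gcongr; linarith
    exact ⟨S, e1, e2.trans (ENNReal.ofReal_le_ofReal this), e3.trans (ENNReal.ofReal_le_ofReal this)⟩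
  choose S hS1 hS2 hS3 using key
  have hsum : ∑' j : ℕ, ENNReal.ofReal (6000 * exp (-1) ^ j) ≠ ⊤ := by
    rw [← ENNReal.ofReal_tsum_of_nonneg (fun j => by positivity)]
    · exact ENNReal.ofReal_ne_top
    · exact (summable_geometric_of_lt_one (exp_pos _).le (exp_lt_one_iff.2 (by norm_num))).mul_left _
  have hN : MeasurableSet (limsup S atTop) := MeasurableSet.measurableSet_limsup hS1
  refine ⟨limsup S atTop, hN,
    measure_limsup_atTop_eq_zero (ne_top_of_le_ne_top hsum (ENNReal.tsum_le_tsum hS2)), ?_⟩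
  rw [← prob_compl_eq_zero_iff hN]
  refine measure_mono_null ?_ (measure_limsup_atTop_eq_zero (s := fun j => (S j)ᶜ)
    (ne_top_of_le_ne_top hsum (ENNReal.tsum_le_tsum hS3)))
  intro x hx
  rw [Set.mem_compl_iff, mem_limsup_iff_frequently_mem, not_frequently] at hx
  rw [mem_limsup_iff_frequently_mem]
  exact hx.frequently

end Vale.Agent.P105
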