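import Vale.Agent.P105.Char
import Vale.Agent.P105.Recursion

/-! The test function separating the Bernoulli convolution from Lebesgue measure. -/

namespace Vale.Agent.P105

open Finset Real MeasureTheory

/-- the random series -/
noncomputable def YY (lam : ℝ) (ω : ℕ → Bool) : ℝ := ∑' n, sgn (ω n) * lam ^ n

lemma abs_sgn (b : Bool) : |sgn b| = 1 := by cases b <;> simp [sgn]

variable {β lam : ℝ} {α : ℂ} {l A B : ℝ} {C : ℂ} {V : ℕ} {H : ℝ}

lemma summable_YY (h0 : 0 < lam) (h1 : lam < 1) (ω : ℕ → Bool) :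
    Summable fun n => sgn (ω n) * lam ^ n := by
  refine Summable.of_norm_bounded (summable_geometric_of_lt_one h0.le h1) fun n => ?_
  rw [Real.norm_eq_abs, abs_mul, abs_sgn, one_mul, abs_of_pos (pow_pos h0 n)]

lemma abs_YY_le (h0 : 0 < lam) (h1 : lam ≤ 3 / 5) (ω : ℕ → Bool) : |YY lam ω| ≤ 5 / 2 := by
  have h2 : lam < 1 := by linarith
  have := tsum_of_norm_bounded (f := fun n => sgn (ω n) * lam ^ n)
    (hasSum_geometric_of_lt_one h0.le h2) fun n => by
      rw [Real.norm_eq_abs, abs_mul, abs_sgn, one_mul, abs_of_pos (pow_pos h0 n)]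
  refine this.trans ?_
  rw [inv_le_comm₀ (by linarith) (by norm_num)]
  linarith

lemma abs_YY_sub_le (h0 : 0 < lam) (h1 : lam ≤ 3 / 5) (ω : ℕ → Bool) (n : ℕ) :
    |YY lam ω - ∑ i ∈ range n, sgn (ω i) * lam ^ i| ≤ 5 / 2 * lam ^ n := by
  have h2 : lam < 1 := by linarith
  have e := (summable_YY h0 h2 ω).sum_add_tsum_nat_add n
  have e2 : ∑' i, sgn (ω (i + n)) * lam ^ (i + n) = YY lam (fun i => ω (i + n)) * lam ^ n := by
    unfold YY
    rw [← tsum_mul_right]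
    exact tsum_congr fun i => by rw [pow_add]; ring
  have : YY lam ω - ∑ i ∈ range n, sgn (ω i) * lam ^ i = YY lam (fun i => ω (i + n)) * lam ^ n := by
    rw [← e2]; unfold YY; linarith
  rw [this, abs_mul, abs_of_pos (pow_pos h0 n)]
  gcongr
  exact abs_YY_le h0 h1 _

lemma measurable_YY (h0 : 0 < lam) (h1 : lam < 1) : Measurable (YY lam) := by
  refine Continuous.measurable ?_
  refine continuous_tsum (fun n => ?_) (summable_geometric_of_lt_one h0.le h1) fun n ω => ?_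
  · exact ((continuous_of_discreteTopology (f := sgn)).comp (continuous_apply n)).mul
      continuous_const
  · rw [Real.norm_eq_abs, abs_mul, abs_sgn, one_mul, abs_of_pos (pow_pos h0 n)]

lemma exp_le_abs_cos {x d : ℝ} (h1 : nd x ≤ d) (h2 : d ≤ 0.43) :
    exp (-70 * d ^ 2) ≤ |cos (π * x)| := by
  have h0 := nd_nonneg x
  have e : |cos (π * x)| = |cos (π * (x - round x))| := by
    rw [mul_sub, mul_comm π (round x : ℝ), cos_sub_int_mul_pi, abs_mul]
    simp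
  have e2 : (π * (x - round x)) ^ 2 = π ^ 2 * nd x ^ 2 := by rw [mul_pow, nd, sq_abs]
  have h3 := one_sub_sq_div_two_le_cos (x := π * (x - round x))
  have hπ : π ^ 2 ≤ 10 := by nlinarith [Real.pi_lt_d2, Real.pi_pos]
  have h4 : nd x ^ 2 ≤ d ^ 2 := pow_le_pow_left₀ h0 h1 2
  have h5 : d ^ 2 ≤ 0.43 ^ 2 := pow_le_pow_left₀ (h0.trans h1) h2 2
  have h6 : 1 - 5 * d ^ 2 ≤ cos (π * (x - round x)) := by nlinarith [sq_nonneg (nd x)]
  rw [e]
  refine le_trans ?_ (h6.trans (le_abs_self _))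
  have h7 := add_one_le_exp (70 * d ^ 2)
  have h8 : exp (70 * d ^ 2) * exp (-70 * d ^ 2) = 1 := by rw [← exp_add]; simp
  have h9 := exp_pos (-70 * d ^ 2)
  have h10 : 1 ≤ (70 * d ^ 2 + 1) * (1 - 5 * d ^ 2) := by nlinarith [sq_nonneg d]
  have h11 : 0 < 1 - 5 * d ^ 2 := by nlinarith
  nlinarith [mul_le_mul_of_nonneg_right h7 (mul_pos h9 h11).le]

lemma Inv.central (hα : ‖α‖ = 1) (h : Inv β lam α l A B C V H) (j : ℕ) :
    |2 * (C * α ^ j).re| ≤ 2 * exp (-5 * l) := by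
  rw [abs_mul, abs_of_pos (by norm_num : (0 : ℝ) < 2)]
  have := Complex.abs_re_le_norm (C * α ^ j)
  rw [norm_mul, norm_pow, hα, one_pow, mul_one] at this
  linarith [h.hC]

lemma Inv.coeff_lower (hlam : β * lam = 1) (hα : ‖α‖ = 1) (h : Inv β lam α l A B C V H)
    (hH : 140 * (2 * H + 1) ≤ l) {w : ℕ} (hW : ((w + 1 : ℕ) : ℝ) ≤ exp (4 * l)) :
    exp (-l) ≤ (∏ e ∈ range (2 * (w + 1)), cos (π * A * β ^ w * lam ^ e)) ^ 2 := by
  set δ := exp (-5 * l) with hδ
  have hδ0 : 0 < δ := exp_pos _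
  have hpow : ∀ i : ℕ, β ^ i * lam ^ i = 1 := fun i => by rw [← mul_pow, hlam, one_pow]
  have p1 : exp (-70 * ∑ j ∈ range (w + 1), (nd (B * lam ^ j) + 2 * δ) ^ 2) ≤
      |∏ e ∈ range (w + 1), cos (π * A * β ^ w * lam ^ e)| := by
    rw [← sum_range_reflect, mul_sum, exp_sum, abs_prod]
    refine prod_le_prod (fun _ _ => (exp_pos _).le) fun e he => ?_
    obtain ⟨j, rfl⟩ := Nat.exists_eq_add_of_le (Nat.lt_succ_iff.1 (mem_range.1 he))
    have e1 : e + j + 1 - 1 - e = j := by omega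
    have e2 : π * A * β ^ (e + j) * lam ^ e = π * (A * β ^ j) := by
      have : π * A * β ^ (e + j) * lam ^ e = π * (A * β ^ j) * (β ^ e * lam ^ e) := by
        rw [pow_add]; ring
      rw [this, hpow, mul_one]
    rw [e1, e2]
    refine exp_le_abs_cos ?_ (by linarith [h.supB j])
    obtain ⟨t, ht⟩ := h.int j
    have e3 : A * β ^ j = ((2 * t : ℤ) : ℝ) - B * lam ^ j - 0 - 2 * (C * α ^ j).re := by
      push_cast; linarith
    have h0 : nd 0 = 0 := by simp [nd]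
    have := nd_three (2 * t) (B * lam ^ j) 0 (2 * (C * α ^ j).re)
    rw [e3]
    linarith [h.central hα j]
  have p2 : exp (-70 * ∑ j ∈ range (w + 1), nd (A * lam ^ (j + 1)) ^ 2) ≤
      |∏ e ∈ range (w + 1), cos (π * A * β ^ w * lam ^ (w + 1 + e))| := by
    rw [mul_sum, exp_sum, abs_prod]
    refine prod_le_prod (fun _ _ => (exp_pos _).le) fun e _ => ?_
    have e2 : π * A * β ^ w * lam ^ (w + 1 + e) = π * (A * lam ^ (e + 1)) := by
      have : π * A * β ^ w * lam ^ (w + 1 + e) = π * (A * lam ^ (e + 1)) * (β ^ w * lam ^ w) := by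
        ring
      rw [this, hpow, mul_one]
    rw [e2]
    exact exp_le_abs_cos le_rfl (by linarith [h.supA (e + 1)])
  have s1 : ∑ j ∈ range (w + 1), (nd (B * lam ^ j) + 2 * δ) ^ 2 ≤
      2 * ∑ j ∈ range (w + 1), nd (B * lam ^ j) ^ 2 + 1 := by
    have : ∑ j ∈ range (w + 1), (nd (B * lam ^ j) + 2 * δ) ^ 2 ≤
        ∑ j ∈ range (w + 1), (2 * nd (B * lam ^ j) ^ 2 + 8 * δ ^ 2) :=
      sum_le_sum fun j _ => by nlinarith [sq_nonneg (nd (B * lam ^ j) - 2 * δ)]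
    rw [sum_add_distrib, ← mul_sum, sum_const, card_range, nsmul_eq_mul] at this
    have h3 : exp (4 * l) * δ ^ 2 = exp (-(6 * l)) := by
      rw [hδ, ← exp_nat_mul, ← exp_add]; congr 1; push_cast; ring
    have h4 : exp (6 * l) * exp (-(6 * l)) = 1 := by rw [← exp_add]; simp
    have h5 : 54 ≤ exp (6 * l) := exp_four_ge.trans (exp_le_exp.2 (by linarith [h.hl]))
    have h6 := mul_le_mul_of_nonneg_right hW (sq_nonneg δ)
    nlinarith [exp_pos (-(6 * l))]
  have s2 := h.en (w + 1 + 1)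
  rw [sum_add_distrib, sum_range_succ' (fun j => nd (A * lam ^ j) ^ 2),
    sum_range_succ (fun j => nd (B * lam ^ j) ^ 2)] at s2
  have s3 : 0 ≤ ∑ j ∈ range (w + 1), nd (A * lam ^ (j + 1)) ^ 2 := sum_nonneg fun _ _ => sq_nonneg _
  rw [two_mul, prod_range_add, ← sq_abs, abs_mul]
  have p3 := mul_le_mul p1 p2 (exp_pos _).le (abs_nonneg _)
  rw [← exp_add] at p3
  refine le_trans ?_ (pow_le_pow_left₀ (exp_pos _).le p3 2)
  rw [← exp_nat_mul]
  apply exp_le_exp.2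
  push_cast
  nlinarith [sq_nonneg (nd (A * lam ^ 0)), sq_nonneg (nd (B * lam ^ (w + 1)))]

lemma prod_block (n a b : ℕ) (hab : a + b ≤ n) (f : ℕ → ℝ) :
    ∏ i ∈ range n, cos (if a ≤ i ∧ i < a + b then f i else 0) = ∏ e ∈ range b, cos (f (a + e)) := by
  have : ∀ i, cos (if a ≤ i ∧ i < a + b then f i else 0) =
      if a ≤ i ∧ i < a + b then cos (f i) else 1 := by
    intro i; split_ifs <;> simp
  simp only [this]
  rw [← prod_filter]
  have e : (range n).filter (fun i => a ≤ i ∧ i < a + b) = Ico a (a + b) := by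
    ext i; simp only [mem_filter, mem_range, mem_Ico]; omega
  rw [e, prod_Ico_eq_prod_range, Nat.add_sub_cancel_left]

lemma integrable_norm_sq {F : (ℕ → Bool) → ℂ} (hF : Measurable F) (K : ℝ) (hK : ∀ ω, ‖F ω‖ ≤ K) :
    Integrable (fun ω => ‖F ω‖ ^ 2) PP :=
  Integrable.of_bound (hF.norm.pow_const 2).aestronglyMeasurable (K ^ 2) (ae_of_all _ fun ω => by
    rw [Real.norm_eq_abs, abs_of_nonneg (sq_nonneg _)]
    exact pow_le_pow_left₀ (norm_nonneg _) (hK ω) 2)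

/-- abstract form of the second moment argument -/
lemma test_abstract (h0 : 0 < lam) (h1 : lam ≤ 3 / 5) (n M : ℕ) (hM : 0 < M) (ξ : ℕ → ℝ)
    (η : ℕ → ℕ → ℝ) (a d : ℝ) (ha : a ≠ 0)
    (F2 : ∀ r < M, ∏ i ∈ range n, cos (η r i) = a)
    (F3 : ∀ r < M, ∀ r' < M, r ≠ r' → ∏ i ∈ range n, cos (η r i - η r' i) = a ^ 2)
    (F5 : ∀ r < M, ∀ i < n, ∃ t : ℤ, |ξ r * lam ^ i - η r i - t * (2 * π)| ≤ d)
    (F6 : ∀ r < M, |ξ r| * (5 / 2 * lam ^ n) ≤ d)
    (F7 : ∀ r < M, ∀ r' < M, r ≠ r' → (M : ℝ) ≤ |ξ r - ξ r'|) :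
    ∃ S : Set ℝ, MeasurableSet S ∧ volume S ≤ ENNReal.ofReal (32 / (a ^ 2 * M)) ∧
      bernoulliConv lam Sᶜ ≤ ENNReal.ofReal (12 * ((n + 1) * d ^ 2 / a ^ 2 + 1 / (a ^ 2 * M))) := by
  have hM' : (0 : ℝ) < M := by exact_mod_cast hM
  have ha2 : 0 < a ^ 2 := by positivity
  let T : ℝ → ℂ := fun y => ∑ r ∈ range M, ee (ξ r * y)
  have hT : Continuous T := continuous_finsetSum _ fun r _ => continuous_ee.comp (by fun_prop)
  have hS : MeasurableSet {y | a ^ 2 * M ^ 2 / 4 ≤ ‖T y‖ ^ 2} :=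
    measurableSet_le measurable_const (hT.measurable.norm.pow_const 2)
  refine ⟨{y | a ^ 2 * M ^ 2 / 4 ≤ ‖T y‖ ^ 2} ∩ Set.Ioc (-3) 3, hS.inter measurableSet_Ioc, ?_, ?_⟩
  · have hi : IntervalIntegrable (fun y => ‖T y‖ ^ 2) volume (-3) 3 :=
      (hT.norm.pow 2).intervalIntegrable _ _
    have := mul_meas_ge_le_integral_of_nonneg (μ := volume.restrict (Set.Ioc (-3 : ℝ) 3))
      (f := fun y => ‖T y‖ ^ 2) (ae_of_all _ fun y => sq_nonneg _) hi.1 (a ^ 2 * M ^ 2 / 4)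
    rw [← intervalIntegral.integral_of_le (by norm_num), measureReal_def,
      Measure.restrict_apply hS] at this
    have h2 := this.trans (integral_lacunary_le M ξ F7)
    have hfin : volume ({y | a ^ 2 * M ^ 2 / 4 ≤ ‖T y‖ ^ 2} ∩ Set.Ioc (-3 : ℝ) 3) ≠ ⊤ :=
      ne_top_of_le_ne_top (by simp) (measure_mono Set.inter_subset_right)
    rw [← ENNReal.ofReal_toReal hfin]
    apply ENNReal.ofReal_le_ofReal
    rw [le_div_iff₀ (by positivity)]
    nlinarith
  have hY := measurable_YY h0 (by linarith : lam < 1)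
  change (PP.map (YY lam)) _ ≤ _
  rw [Measure.map_apply hY (hS.inter measurableSet_Ioc).compl]
  let D : ℕ → (ℕ → Bool) → ℂ := fun r ω =>
    ee (lin n (fun i => ξ r * lam ^ i) ω) - ee (lin n (η r) ω)
  let Ψ : (ℕ → Bool) → ℂ := fun ω => ∑ r ∈ range M, ee (lin n (η r) ω) - (a * M : ℝ)
  let g : (ℕ → Bool) → ℝ := fun ω =>
    3 * ((M * d) ^ 2 + M * ∑ r ∈ range M, ‖D r ω‖ ^ 2 + ‖Ψ ω‖ ^ 2)
  have iD : ∀ r, Integrable (fun ω => ‖D r ω‖ ^ 2) PP := fun r =>
    integrable_norm_sq ((measurable_ee_lin _ _).sub (measurable_ee_lin _ _)) 2 fun ω =>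
      (norm_sub_le _ _).trans (by rw [norm_ee, norm_ee]; norm_num)
  have iΨ : Integrable (fun ω => ‖Ψ ω‖ ^ 2) PP :=
    integrable_norm_sq ((Finset.measurable_sum _ fun r _ => measurable_ee_lin _ _).sub
      measurable_const) (M + ‖((a * M : ℝ) : ℂ)‖) fun ω => (norm_sub_le _ _).trans (by
        gcongr
        exact (norm_sum_le _ _).trans (by simp [norm_ee]))
  have iD' : Integrable (fun ω => (M : ℝ) * ∑ r ∈ range M, ‖D r ω‖ ^ 2) PP :=
    (integrable_finsetSum _ fun r _ => iD r).const_mul _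
  have i1 : Integrable (fun ω => ((M : ℝ) * d) ^ 2 + M * ∑ r ∈ range M, ‖D r ω‖ ^ 2) PP :=
    (integrable_const _).add iD'
  have ig : Integrable g PP := (i1.add iΨ).const_mul 3
  have hg : ∫ ω, g ω ∂PP ≤ 3 * ((M * d) ^ 2 + M * (M * (n * d ^ 2)) + M) := by
    simp only [g]
    rw [integral_const_mul, integral_add i1 iΨ, integral_add (integrable_const _) iD',
      integral_const_mul, integral_finsetSum _ fun r _ => iD r]
    have e1 : ∑ r ∈ range M, ∫ ω, ‖D r ω‖ ^ 2 ∂PP ≤ ∑ r ∈ range M, n * d ^ 2 :=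
      sum_le_sum fun r hr => integral_norm_sq_sub_le n _ _ d (F5 r (mem_range.1 hr))
    have e2 := integral_blocks_le n M η a F2 F3
    simp only [sum_const, card_range, nsmul_eq_mul] at e1
    simp only [integral_const, probReal_univ, smul_eq_mul, one_mul]
    gcongr
  have hsub : YY lam ⁻¹' ({y | a ^ 2 * M ^ 2 / 4 ≤ ‖T y‖ ^ 2} ∩ Set.Ioc (-3 : ℝ) 3)ᶜ ⊆
      {ω | a ^ 2 * M ^ 2 / 4 ≤ g ω} := by
    intro ω hω
    have hb := abs_le.1 (abs_YY_le h0 h1 ω)
    have hlt : ‖T (YY lam ω)‖ ^ 2 < a ^ 2 * M ^ 2 / 4 := by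
      by_contra hc
      exact hω ⟨not_lt.1 hc, by linarith [hb.1], by linarith [hb.2]⟩
    have hlt' : ‖T (YY lam ω)‖ < |a| * M / 2 := by
      refine lt_of_pow_lt_pow_left₀ 2 (by positivity) ?_
      rw [div_pow, mul_pow, sq_abs]; linarith
    let E : ℂ := ∑ r ∈ range M, (ee (ξ r * YY lam ω) - ee (lin n (fun i => ξ r * lam ^ i) ω))
    have hE : ‖E‖ ≤ M * d := by
      refine (norm_sum_le _ _).trans ?_
      refine (sum_le_card_nsmul _ _ d fun r hr => ?_).trans (by simp)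
      refine (norm_ee_sub _ _).trans (le_trans ?_ (F6 r (mem_range.1 hr)))
      have : ξ r * YY lam ω - lin n (fun i => ξ r * lam ^ i) ω =
          ξ r * (YY lam ω - ∑ i ∈ range n, sgn (ω i) * lam ^ i) := by
        unfold lin
        rw [mul_sub, mul_sum]
        congr 1
        exact sum_congr rfl fun i _ => by ring
      rw [this, abs_mul]
      gcongr
      exact abs_YY_sub_le h0 h1 ω n
    have hD : ‖∑ r ∈ range M, D r ω‖ ^ 2 ≤ M * ∑ r ∈ range M, ‖D r ω‖ ^ 2 := by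
      refine (pow_le_pow_left₀ (norm_nonneg _) (norm_sum_le _ _) 2).trans ?_
      simpa using sq_sum_le_card_mul_sum_sq (s := range M) (f := fun r => ‖D r ω‖)
    have hdec : T (YY lam ω) - (a * M : ℝ) = E + ∑ r ∈ range M, D r ω + Ψ ω := by
      simp only [T, E, D, Ψ, sum_sub_distrib]; ring
    have h3 : |a| * M ≤ ‖T (YY lam ω)‖ + ‖T (YY lam ω) - (a * M : ℝ)‖ := by
      have : ((a * M : ℝ) : ℂ) = T (YY lam ω) - (T (YY lam ω) - (a * M : ℝ)) := by ring
      calc |a| * M = ‖((a * M : ℝ) : ℂ)‖ := by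
            rw [Complex.norm_real, Real.norm_eq_abs, abs_mul, abs_of_pos hM']
        _ ≤ _ := by rw [this]; refine (norm_sub_le _ _).trans ?_; rw [← this]
    have h4 : ‖T (YY lam ω) - (a * M : ℝ)‖ ≤ M * d + ‖∑ r ∈ range M, D r ω‖ + ‖Ψ ω‖ := by
      rw [hdec]
      exact norm_add₃_le.trans (by gcongr)
    have h5 : (|a| * M / 2) ^ 2 ≤ (M * d + ‖∑ r ∈ range M, D r ω‖ + ‖Ψ ω‖) ^ 2 :=
      pow_le_pow_left₀ (by positivity) (by linarith) 2
    rw [div_pow, mul_pow, sq_abs] at h5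
    simp only [Set.mem_ofPred_eq, g]
    nlinarith [sq_nonneg (M * d - ‖∑ r ∈ range M, D r ω‖), sq_nonneg (M * d - ‖Ψ ω‖),
      sq_nonneg (‖∑ r ∈ range M, D r ω‖ - ‖Ψ ω‖)]
  refine (measure_mono hsub).trans ?_
  have := (mul_meas_ge_le_integral_of_nonneg (μ := PP) (f := g)
    (ae_of_all _ fun ω => by positivity) ig (a ^ 2 * M ^ 2 / 4)).trans hg
  rw [← ENNReal.ofReal_toReal (measure_ne_top PP _)]
  apply ENNReal.ofReal_le_ofReal
  rw [measureReal_def] at this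
  have e : 12 * ((n + 1) * d ^ 2 / a ^ 2 + 1 / (a ^ 2 * M)) =
      3 * ((M * d) ^ 2 + M * (M * (n * d ^ 2)) + M) / (a ^ 2 * M ^ 2 / 4) := by
    field_simp; ring
  rw [e, le_div_iff₀ (by positivity)]
  linarith

end Vale.Agent.P105
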